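import Crest.Agent.R52.Prob

/-!
The spread lemma with explicit constants, by minimal fragments.
-/

set_option autoImplicit false
set_option linter.unusedSectionVars false

open Finset

namespace Crest.Agent.R55

open Crest.Agent.R52

section tilt

variable {ι Γ : Type} [Fintype ι] [DecidableEq ι] [Fintype Γ]

/-- Coordinatewise push-forward with a product density. -/
lemma Ex_tilt' [DecidableEq Γ] (w : Γ → ℝ) (φ : ι → Γ → Γ) (c : ι → ℝ) (g : ι → Γ → ℝ)
    (h : ∀ i γ', c i * ∑ γ, w γ * (if φ i γ = γ' then 1 else 0) = w γ' * g i γ')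
    (F : (ι → Γ) → ℝ) :
    (∏ i, c i) * Ex w (fun ω => F (fun i => φ i (ω i))) =
      Ex w (fun ω => (∏ i, g i (ω i)) * F ω) := by
  have h1 : ∀ ω : ι → Γ, F (fun i => φ i (ω i)) =
      ∑ η : ι → Γ, F η * ∏ i, (if φ i (ω i) = η i then (1 : ℝ) else 0) := by
    intro ω
    rw [Finset.sum_eq_single (fun i => φ i (ω i))]
    · simp
    · intro η _ hη
      obtain ⟨i, hi⟩ := Function.ne_iff.1 hη
      rw [Finset.prod_eq_zero (Finset.mem_univ i) (by simp [Ne.symm hi]), mul_zero]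
    · simp
  simp only [h1]
  rw [Ex_sum, Finset.mul_sum]
  conv_rhs => unfold Ex
  refine Finset.sum_congr rfl fun η _ => ?_
  rw [Ex_const_mul, Ex_prod w (fun i γ => if φ i γ = η i then (1 : ℝ) else 0)]
  have h2 : (∏ i, c i) * ∏ i, ∑ γ, w γ * (if φ i γ = η i then (1 : ℝ) else 0) =
      pw w η * ∏ i, g i (η i) := by
    unfold pw
    rw [← Finset.prod_mul_distrib, ← Finset.prod_mul_distrib]
    exact Finset.prod_congr rfl fun i _ => h i (η i)
  calc (∏ i, c i) * (F η * ∏ i, ∑ γ, w γ * (if φ i γ = η i then (1 : ℝ) else 0))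
      = F η * ((∏ i, c i) * ∏ i, ∑ γ, w γ * (if φ i γ = η i then (1 : ℝ) else 0)) := by ring
    _ = _ := by rw [h2]; ring

lemma Ex_ind_subset' (σ : ℝ) (S : Finset ι) (F : (ι → Bool) → ℝ) :
    Ex (bw σ) (fun R => ind (∀ b ∈ S, R b = true) * F R) =
      σ ^ S.card * Ex (bw σ) (fun R => F (fun b => decide (b ∈ S) || R b)) := by
  have h := Ex_tilt' (ι := ι) (bw σ) (fun b γ => decide (b ∈ S) || γ)
    (fun b => if b ∈ S then σ else 1) (fun b γ => if b ∈ S then ind (γ = true) else 1) (by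
      intro b γ'
      by_cases hb : b ∈ S <;> cases γ' <;> simp [hb, bw, ind]) F
  simp only [Finset.prod_ite_mem, Finset.univ_inter, Finset.prod_const] at h
  rw [h]
  simp only [ind_forall]

end tilt

variable {V Ω : Type} [Fintype V] [DecidableEq V] [Fintype Ω]

/-- The weighted family `S` is `r`-spread. -/
def Spread (π : Ω → ℝ) (S : Ω → Finset V) (r : ℝ) : Prop :=
  ∀ A : Finset V, ∑ ω, π ω * ind (A ⊆ S ω) ≤ r ^ A.card

/-- `T` is a system of minimal fragments for the sample `W`. -/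
def IsFrag (π : Ω → ℝ) (S : Ω → Finset V) (W : V → Bool) (T : Ω → Finset V) : Prop :=
  ∀ ω, π ω ≠ 0 → T ω ⊆ S ω ∧ (∃ ω', π ω' ≠ 0 ∧ ∀ i ∈ S ω', i ∈ T ω ∨ W i = true) ∧
    ∀ ω', π ω' ≠ 0 → (∀ i ∈ S ω', i ∈ T ω ∨ W i = true) → T ω ⊆ S ω'

lemma exists_frag (π : Ω → ℝ) (S : Ω → Finset V) (W : V → Bool) : ∃ T, IsFrag π S W T := by
  classical
  have key : ∀ ω, ∃ T : Finset V, π ω ≠ 0 → T ⊆ S ω ∧
      (∃ ω', π ω' ≠ 0 ∧ ∀ i ∈ S ω', i ∈ T ∨ W i = true) ∧
      ∀ ω', π ω' ≠ 0 → (∀ i ∈ S ω', i ∈ T ∨ W i = true) → T ⊆ S ω' := by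
    intro ω
    by_cases h : π ω = 0
    · exact ⟨∅, fun h' => absurd h h'⟩
    obtain ⟨ω₁, h1, h2⟩ := Finset.exists_min_image
      (Finset.univ.filter fun ω' => π ω' ≠ 0 ∧ ∀ i ∈ S ω', i ∈ S ω ∨ W i = true)
      (fun ω' => ((S ω').filter fun i => ¬ W i = true).card)
      ⟨ω, Finset.mem_filter.2 ⟨Finset.mem_univ _, h, fun i hi => Or.inl hi⟩⟩
    obtain ⟨h3, h4⟩ := (Finset.mem_filter.1 h1).2
    have h5 : ((S ω₁).filter fun i => ¬ W i = true) ⊆ S ω := fun i hi => by
      obtain ⟨h6, h7⟩ := Finset.mem_filter.1 hi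
      exact (h4 i h6).resolve_right h7
    refine ⟨(S ω₁).filter fun i => ¬ W i = true, fun _ => ⟨h5, ⟨ω₁, h3, fun i hi => ?_⟩, ?_⟩⟩
    · by_cases hW : W i = true
      · exact Or.inr hW
      · exact Or.inl (Finset.mem_filter.2 ⟨hi, hW⟩)
    · intro ω' h6 h7
      have h8 := h2 ω' (Finset.mem_filter.2 ⟨Finset.mem_univ _, h6, fun i hi =>
        (h7 i hi).imp_left fun h => h5 h⟩)
      have h9 : ((S ω').filter fun i => ¬ W i = true) ⊆ (S ω₁).filter fun i => ¬ W i = true :=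
        fun i hi => by
          obtain ⟨h10, h11⟩ := Finset.mem_filter.1 hi
          exact (h7 i h10).resolve_right h11
      rw [← Finset.eq_of_subset_of_card_le h9 h8]
      exact Finset.filter_subset _ _
  choose T hT using key
  exact ⟨T, hT⟩

lemma sum_subsets_le (C : Finset V) (m : ℕ) (hC : C.card ≤ 2 * m) :
    ∑ A : Finset V, ind (m ≤ A.card) * (1 / 16 : ℝ) ^ A.card * ind (A ⊆ C) ≤ (1 / 4) ^ m := by
  calc ∑ A : Finset V, ind (m ≤ A.card) * (1 / 16 : ℝ) ^ A.card * ind (A ⊆ C)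
      ≤ ∑ A : Finset V, (1 / 16 : ℝ) ^ m * ind (A ⊆ C) := by
        refine Finset.sum_le_sum fun A _ => mul_le_mul_of_nonneg_right ?_ (ind_nonneg _)
        by_cases h : m ≤ A.card
        · rw [ind_true h, one_mul]
          exact pow_le_pow_of_le_one (by norm_num) (by norm_num) h
        · rw [ind_false h, zero_mul]; positivity
    _ = (1 / 16 : ℝ) ^ m * 2 ^ C.card := by
        rw [← Finset.mul_sum, sum_ind_eq_card]
        have : Finset.univ.filter (fun A => A ⊆ C) = C.powerset := by ext A; simp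
        rw [this, Finset.card_powerset]
        push_cast
        rfl
    _ ≤ (1 / 16 : ℝ) ^ m * 2 ^ (2 * m) :=
        mul_le_mul_of_nonneg_left (pow_le_pow_right₀ (by norm_num) hC) (by positivity)
    _ = _ := by rw [pow_mul, ← mul_pow]; norm_num

/-- One round: large fragments are rare. -/
lemma round {π : Ω → ℝ} (hπ : ∀ ω, 0 ≤ π ω) {S : Ω → Finset V} {r : ℝ} (hr0 : 0 ≤ r)
    (hr1 : 16 * r ≤ 1) (hS : Spread π S r) (m : ℕ) (hm : ∀ ω, π ω ≠ 0 → (S ω).card ≤ 2 * m)
    (T : (V → Bool) → Ω → Finset V) (hT : ∀ W, IsFrag π S W (T W)) :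
    Ex (bw (16 * r)) (fun W => ∑ ω, π ω * ind (m ≤ (T W ω).card)) ≤ (1 / 4) ^ m := by
  have hw := isProb_bw (p := 16 * r) (by linarith) hr1
  have hcan : ∀ Z : V → Bool, ∃ C : Finset V, C.card ≤ 2 * m ∧
      ((∃ ω, π ω ≠ 0 ∧ ∀ i ∈ S ω, Z i = true) →
        ∃ ω, π ω ≠ 0 ∧ (∀ i ∈ S ω, Z i = true) ∧ C = S ω) := by
    intro Z
    by_cases h : ∃ ω, π ω ≠ 0 ∧ ∀ i ∈ S ω, Z i = true
    · obtain ⟨ω, h1, h2⟩ := h
      exact ⟨S ω, hm ω h1, fun _ => ⟨ω, h1, h2, rfl⟩⟩
    · exact ⟨∅, by simp, fun h' => absurd h' h⟩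
  choose can hc1 hc2 using hcan
  have h1 : ∀ W : V → Bool, ∑ ω, π ω * ind (m ≤ (T W ω).card) ≤
      ∑ A : Finset V, ind (m ≤ A.card) * r ^ A.card *
        ind (A ⊆ can (fun b => decide (b ∈ A) || W b)) := by
    intro W
    calc ∑ ω, π ω * ind (m ≤ (T W ω).card)
        ≤ ∑ ω, π ω * ∑ A : Finset V, ind (m ≤ A.card) * ind (A ⊆ S ω) *
            ind (A ⊆ can (fun b => decide (b ∈ A) || W b)) := by
          refine Finset.sum_le_sum fun ω _ => ?_
          by_cases h0 : π ω = 0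
          · simp [h0]
          refine mul_le_mul_of_nonneg_left ?_ (hπ ω)
          obtain ⟨t1, ⟨ω', t2, t3⟩, t4⟩ := hT W ω h0
          obtain ⟨ω'', u1, u2, u3⟩ := hc2 (fun b => decide (b ∈ T W ω) || W b)
            ⟨ω', t2, fun i hi => by simpa using t3 i hi⟩
          have t5 : T W ω ⊆ can (fun b => decide (b ∈ T W ω) || W b) := by
            rw [u3]
            exact t4 ω'' u1 fun i hi => by simpa using u2 i hi
          have := Finset.single_le_sum (f := fun A : Finset V => ind (m ≤ A.card) * ind (A ⊆ S ω) *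
            ind (A ⊆ can (fun b => decide (b ∈ A) || W b)))
            (fun A _ => mul_nonneg (mul_nonneg (ind_nonneg _) (ind_nonneg _)) (ind_nonneg _))
            (Finset.mem_univ (T W ω))
          rwa [ind_true t1, ind_true t5, mul_one, mul_one] at this
      _ = ∑ A : Finset V, ind (m ≤ A.card) * (∑ ω, π ω * ind (A ⊆ S ω)) *
            ind (A ⊆ can (fun b => decide (b ∈ A) || W b)) := by
          simp only [Finset.mul_sum, Finset.sum_mul]
          rw [Finset.sum_comm]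
          exact Finset.sum_congr rfl fun A _ => Finset.sum_congr rfl fun ω _ => by ring
      _ ≤ _ := Finset.sum_le_sum fun A _ => mul_le_mul_of_nonneg_right
          (mul_le_mul_of_nonneg_left (hS A) (ind_nonneg _)) (ind_nonneg _)
  refine (Ex_mono hw.nonneg h1).trans ?_
  refine le_trans ?_ (Ex_le_const hw (fun R => sum_subsets_le (can R) m (hc1 R)))
  rw [Ex_sum, Ex_sum]
  refine Finset.sum_le_sum fun A _ => ?_
  rw [Ex_const_mul, Ex_const_mul]
  have e : r ^ A.card = (1 / 16 : ℝ) ^ A.card * (16 * r) ^ A.card := by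
    rw [← mul_pow]; congr 1; ring
  rw [e, ← mul_assoc, mul_assoc _ ((16 * r) ^ A.card),
    ← Ex_ind_subset' (16 * r) A (fun R => ind (A ⊆ can R))]
  refine mul_le_mul_of_nonneg_left (Ex_mono hw.nonneg fun R => ?_)
    (mul_nonneg (ind_nonneg _) (by positivity))
  exact mul_le_of_le_one_left (ind_nonneg _) (ind_le_one _)

/-- The spread lemma. -/
theorem spread_lemma {r : ℝ} (hr0 : 0 ≤ r) (hr1 : 16 * r ≤ 1) (k : ℕ) :
    ∀ (π : Ω → ℝ) (S : Ω → Finset V), (∀ ω, 0 ≤ π ω) → Spread π S r →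
      (∀ ω, π ω ≠ 0 → (S ω).card < 2 ^ k) →
      ∑ ω, π ω - 1 / 3 * (1 - (1 / 4) ^ k) ≤
        Pr (bw (1 - (1 - 16 * r) ^ k)) (fun W => ∃ ω, π ω ≠ 0 ∧ ∀ i ∈ S ω, W i = true) := by
  have hw := isProb_bw (p := 16 * r) (by linarith) hr1
  have hq : ∀ k : ℕ, IsProb (bw (1 - (1 - 16 * r) ^ k)) := fun k => isProb_bw
    (by have := pow_le_one₀ (n := k) (a := 1 - 16 * r) (by linarith) (by linarith); linarith)
    (by have := pow_nonneg (a := 1 - 16 * r) (by linarith) k; linarith)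
  induction k with
  | zero =>
    intro π S hπ hS hk
    by_cases h : ∃ ω, π ω ≠ 0
    · obtain ⟨ω, hω⟩ := h
      have h1 : S ω = ∅ := Finset.card_eq_zero.1 (by have := hk ω hω; omega)
      rw [Pr_true (sum_bw _) (fun W => ⟨ω, hω, by simp [h1]⟩)]
      have := hS ∅
      simp only [Finset.empty_subset, ind_true trivial, mul_one, Finset.card_empty, pow_zero] at this
      simpa using this
    · push Not at h
      simp only [h, Finset.sum_const_zero, pow_zero, sub_self, mul_zero]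
      exact Pr_nonneg (isProb_bw le_rfl zero_le_one).nonneg _
  | succ k ih =>
    intro π S hπ hS hk
    choose T hT using fun W => exists_frag π S W
    have hround := round hπ hr0 hr1 hS (2 ^ k) (fun ω h => by have := hk ω h; omega) T hT
    have e : 1 - (1 - 16 * r) ^ (k + 1) = 1 - (1 - 16 * r) * (1 - (1 - (1 - 16 * r) ^ k)) := by
      ring
    rw [e]
    unfold Pr
    rw [← Ex_union]
    have h1 : ∀ W : V → Bool, (∑ ω, π ω - 1 / 3 * (1 - (1 / 4) ^ k)) -
        ∑ ω, π ω * ind (2 ^ k ≤ (T W ω).card) ≤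
        Ex (bw (1 - (1 - 16 * r) ^ k)) (fun W' =>
          ind (∃ ω, π ω ≠ 0 ∧ ∀ i ∈ S ω, (W i || W' i) = true)) := by
      intro W
      have h2 := ih (fun ω => π ω * ind ((T W ω).card < 2 ^ k)) (T W)
        (fun ω => mul_nonneg (hπ ω) (ind_nonneg _)) (fun A => (Finset.sum_le_sum fun ω _ => by
          by_cases h0 : π ω = 0
          · simp [h0]
          · exact mul_le_mul (mul_le_of_le_one_right (hπ ω) (ind_le_one _))
              (ind_mono fun h => h.trans (hT W ω h0).1) (ind_nonneg _) (hπ ω)).trans (hS A))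
        (fun ω h => by
          by_contra hc
          exact h (by rw [ind_false hc, mul_zero]))
      have h3 : ∑ ω, π ω * ind ((T W ω).card < 2 ^ k) =
          ∑ ω, π ω - ∑ ω, π ω * ind (2 ^ k ≤ (T W ω).card) := by
        rw [← Finset.sum_sub_distrib]
        refine Finset.sum_congr rfl fun ω _ => ?_
        rw [← ind_congr not_lt, ind_not]
        ring
      rw [h3] at h2
      refine le_trans (le_of_eq (by ring)) (h2.trans (Pr_mono (hq k).nonneg ?_))
      rintro W' ⟨ω, h4, h5⟩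
      obtain ⟨ω', h6, h7⟩ := (hT W ω (left_ne_zero_of_mul h4)).2.1
      refine ⟨ω', h6, fun i hi => ?_⟩
      rcases h7 i hi with h | h
      · simp [h5 i h]
      · simp [h]
    refine le_trans ?_ (Ex_mono hw.nonneg h1)
    rw [Ex_sub, Ex_const hw.sum_one]
    have h8 : (1 / 4 : ℝ) ^ 2 ^ k ≤ (1 / 4) ^ (k + 1) :=
      pow_le_pow_of_le_one (by norm_num) (by norm_num) Nat.lt_two_pow_self
    rw [pow_succ] at h8 ⊢
    linarith

end Crest.Agent.R55
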