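import Crest.Agent.R55.Spread
import Crest.Agent.R55.Frag
import Crest.Prelude.Def_RandomGraph

/-!
From graphs to group orbits of edge sets.
-/

set_option autoImplicit false
set_option linter.unusedSectionVars false

open Finset Pointwise

namespace Crest.Agent.R55

open Crest.Agent.R52 Crest.CombinatoricsR.RandomGraph

/-- Vertex permutations act on edge slots. -/
instance edgeAct (n : ℕ) : MulAction (Equiv.Perm (Fin n)) (EdgeSlot n) where
  smul π e := ⟨e.1.map π, by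
    have := e.2
    rwa [Sym2.isDiag_map π.injective]⟩
  one_smul e := Subtype.ext (by
    change e.1.map _ = e.1
    simp)
  mul_smul π σ e := Subtype.ext (by
    change e.1.map _ = (e.1.map σ).map π
    rw [Sym2.map_map]
    rfl)

lemma smul_val {n : ℕ} (π : Equiv.Perm (Fin n)) (e : EdgeSlot n) : (π • e).1 = e.1.map π := rfl

lemma adj_graphOf {n : ℕ} (ω : EdgeSlot n → Bool) (a b : Fin n) :
    (graphOf ω).Adj a b ↔ ∃ z : EdgeSlot n, z.1 = s(a, b) ∧ ω z = true := by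
  simp only [graphOf, SimpleGraph.fromEdgeSet_adj, Set.mem_ofPred_eq]
  constructor
  · rintro ⟨⟨h1, h2⟩, _⟩
    exact ⟨⟨_, h1⟩, rfl, h2⟩
  · rintro ⟨⟨z, hz⟩, rfl, h2⟩
    exact ⟨⟨hz, h2⟩, by simpa using hz⟩

lemma gnpProb_eq (n : ℕ) (ρ : ℝ) (E : Set (SimpleGraph (Fin n))) :
    gnpProb n ρ E = Pr (bw ρ) (fun ω : EdgeSlot n → Bool => graphOf ω ∈ E) := by
  classical
  unfold gnpProb FinProb.bernoulliProb Pr Ex
  rw [Finset.sum_filter]
  refine Finset.sum_congr rfl fun ω _ => ?_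
  simp only [Set.mem_ofPred_eq, ind, pw, bw, FinProb.bernoulliWeight]
  split_ifs <;> simp

lemma gnpExpect_eq (n : ℕ) (ρ : ℝ) (X : SimpleGraph (Fin n) → ℝ) :
    gnpExpect n ρ X = Ex (bw ρ) (fun ω : EdgeSlot n → Bool => X (graphOf ω)) := rfl

variable {n : ℕ} {W : Type} [Fintype W] [DecidableEq W]

open Classical in
/-- The edge slots of the image of `H` under `e`. -/
noncomputable def slots (e : W ↪ Fin n) (H : SimpleGraph W) : Finset (EdgeSlot n) :=
  Finset.univ.filter fun z => ∃ u v, H.Adj u v ∧ z.1 = s(e u, e v)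

lemma mem_slots {e : W ↪ Fin n} {H : SimpleGraph W} {z : EdgeSlot n} :
    z ∈ slots e H ↔ ∃ u v, H.Adj u v ∧ z.1 = s(e u, e v) := by
  simp [slots]

lemma card_slots_le (e : W ↪ Fin n) (H : SimpleGraph W) [DecidableRel H.Adj] :
    (slots e H).card ≤ H.edgeFinset.card := by
  refine le_trans (Finset.card_le_card_of_injOn (t := H.edgeFinset.image (Sym2.map e))
    (fun z => z.1) (fun z hz => ?_) (fun a _ b _ h => Subtype.ext h)) Finset.card_image_le
  obtain ⟨u, v, h1, h2⟩ := mem_slots.1 (Finset.mem_coe.1 hz)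
  exact Finset.mem_coe.2 (Finset.mem_image.2 ⟨s(u, v), by simpa using h1, by simp [h2]⟩)

lemma slots_nonempty (e : W ↪ Fin n) (H : SimpleGraph W) [DecidableRel H.Adj]
    (hH : 1 ≤ H.edgeFinset.card) : (slots e H).Nonempty := by
  obtain ⟨y, hy⟩ := Finset.card_pos.1 hH
  induction y using Sym2.ind with
  | _ u v =>
    have h : H.Adj u v := by simpa using hy
    exact ⟨⟨s(e u, e v), by simpa using h.ne⟩, mem_slots.2 ⟨u, v, h, rfl⟩⟩

lemma isContained_of (e : W ↪ Fin n) (H : SimpleGraph W) (ω : EdgeSlot n → Bool)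
    (g : Equiv.Perm (Fin n)) (h : ∀ z ∈ g • slots e H, ω z = true) :
    H.IsContained (graphOf ω) := by
  refine ⟨⟨⟨fun w => g (e w), fun {a b} hab => ?_⟩, g.injective.comp e.injective⟩⟩
  let z : EdgeSlot n := ⟨s(e a, e b), by simpa using hab.ne⟩
  exact (adj_graphOf ω _ _).2 ⟨g • z, by simp [smul_val, z],
    h _ (Finset.smul_mem_smul_finset (mem_slots.2 ⟨a, b, hab, rfl⟩))⟩

/-- The subgraph spanned by a set of edge slots. -/
def subOf (e : W ↪ Fin n) (H : SimpleGraph W) (D : Finset (EdgeSlot n)) : H.Subgraph where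
  verts := {u | ∃ v, H.Adj u v ∧ ∃ z ∈ D, z.1 = s(e u, e v)}
  Adj u v := H.Adj u v ∧ ∃ z ∈ D, z.1 = s(e u, e v)
  adj_sub h := h.1
  edge_vert h := ⟨_, h⟩
  symm := ⟨fun _ _ ⟨h1, z, h2, h3⟩ => ⟨h1.symm, z, h2, h3.trans Sym2.eq_swap⟩⟩

lemma copyCount_le (e : W ↪ Fin n) (H : SimpleGraph W) {D : Finset (EdgeSlot n)}
    (hD : D ⊆ slots e H) (ω : EdgeSlot n → Bool) :
    ((graphOf ω).copyCount (subOf e H D).coe : ℝ) ≤
      ∑ D' ∈ Finset.univ.image (fun g : Equiv.Perm (Fin n) => g • D),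
        ind (∀ z ∈ D', ω z = true) := by
  classical
  rw [sum_ind_eq_card, Nat.cast_le, SimpleGraph.copyCount]
  refine Finset.card_le_card_of_injOn
    (fun G' => Finset.univ.filter fun z : EdgeSlot n => z.1 ∈ G'.edgeSet) ?_ ?_
  · intro G' hG'
    obtain ⟨φ⟩ := (Finset.mem_filter.1 (Finset.mem_coe.1 hG')).2
    obtain ⟨σ, hσ⟩ := Equiv.Perm.exists_extending_pair
      (f := fun v : (subOf e H D).verts => e v) (g := fun v => (φ v : Fin n))
      (fun a b h => Subtype.ext (e.injective h)) (fun a b h => φ.injective (Subtype.ext h))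
    refine Finset.mem_coe.2 (Finset.mem_filter.2 ⟨Finset.mem_image.2 ⟨σ, Finset.mem_univ _, ?_⟩, ?_⟩)
    · ext z
      rw [Finset.mem_filter, Finset.mem_smul_finset]
      constructor
      · rintro ⟨y, hy, rfl⟩
        obtain ⟨u, v, h1, h2⟩ := mem_slots.1 (hD hy)
        have h3 : (subOf e H D).Adj u v := ⟨h1, y, hy, h2⟩
        have h4 : (subOf e H D).coe.Adj ⟨u, h3.fst_mem⟩ ⟨v, h3.snd_mem⟩ := h3
        have h5 : G'.Adj (φ ⟨u, h3.fst_mem⟩) (φ ⟨v, h3.snd_mem⟩) := φ.map_adj_iff.2 h4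
        refine ⟨Finset.mem_univ _, ?_⟩
        rw [smul_val, h2, Sym2.map_mk, SimpleGraph.Subgraph.mem_edgeSet]
        rw [← hσ, ← hσ] at h5
        exact h5
      · rintro ⟨-, hz⟩
        obtain ⟨z, hz0⟩ := z
        induction z using Sym2.ind with
        | _ a b =>
          have h1 : G'.Adj a b := hz
          obtain ⟨u, hu⟩ := φ.surjective ⟨a, h1.fst_mem⟩
          obtain ⟨v, hv⟩ := φ.surjective ⟨b, h1.snd_mem⟩
          have h2 : G'.coe.Adj (φ u) (φ v) := by rw [hu, hv]; exact h1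
          obtain ⟨_, y, hy, h3⟩ : (subOf e H D).Adj u v := φ.map_adj_iff.1 h2
          refine ⟨y, hy, Subtype.ext ?_⟩
          rw [smul_val, h3, Sym2.map_mk, hσ, hσ, hu, hv]
    · rintro ⟨z, hz0⟩ hz
      induction z using Sym2.ind with
      | _ a b =>
        have h1 : G'.Adj a b := (Finset.mem_filter.1 hz).2
        obtain ⟨y, h2, h3⟩ := (adj_graphOf ω a b).1 (G'.adj_sub h1)
        rwa [show (⟨s(a, b), hz0⟩ : EdgeSlot n) = y from Subtype.ext h2.symm]
  · have hv : ∀ G' : (graphOf ω).Subgraph, Nonempty ((subOf e H D).coe ≃g G'.coe) →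
        ∀ a, a ∈ G'.verts ↔ ∃ b, G'.Adj a b := by
      rintro G' ⟨φ⟩ a
      refine ⟨fun ha => ?_, fun ⟨b, hb⟩ => hb.fst_mem⟩
      obtain ⟨⟨u, v, huv⟩, hu⟩ := φ.surjective ⟨a, ha⟩
      have h3 : (subOf e H D).Adj u v := huv
      have h4 : (subOf e H D).coe.Adj ⟨u, v, huv⟩ ⟨v, h3.snd_mem⟩ := h3
      have h5 : G'.coe.Adj (φ ⟨u, v, huv⟩) (φ ⟨v, h3.snd_mem⟩) := φ.map_adj_iff.2 h4
      rw [hu] at h5
      exact ⟨_, h5⟩
    intro G₁ h₁ G₂ h₂ h
    have hadj : ∀ a b, G₁.Adj a b ↔ G₂.Adj a b := by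
      intro a b
      by_cases hab : a = b
      · subst hab
        exact ⟨fun h => absurd rfl (G₁.adj_sub h).ne, fun h => absurd rfl (G₂.adj_sub h).ne⟩
      · have := Finset.ext_iff.1 h ⟨s(a, b), by simpa using hab⟩
        simpa using this
    ext a b
    · rw [hv G₁ (Finset.mem_filter.1 (Finset.mem_coe.1 h₁)).2,
        hv G₂ (Finset.mem_filter.1 (Finset.mem_coe.1 h₂)).2]
      simp only [hadj]
    · exact hadj a b

lemma expect_le (e : W ↪ Fin n) (H : SimpleGraph W) {D : Finset (EdgeSlot n)}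
    (hD : D ⊆ slots e H) {p : ℝ} (hp0 : 0 ≤ p) (hp1 : p ≤ 1) :
    gnpExpect n p (fun G => (G.copyCount (subOf e H D).coe : ℝ)) ≤
      ((Finset.univ.image (fun g : Equiv.Perm (Fin n) => g • D)).card : ℝ) * p ^ D.card := by
  rw [gnpExpect_eq]
  refine (Ex_mono (isProb_bw hp0 hp1).nonneg (copyCount_le e H hD)).trans (le_of_eq ?_)
  rw [Ex_sum, Finset.sum_congr rfl (g := fun _ => p ^ D.card)]
  · simp
  · intro D' hD'
    obtain ⟨g, _, rfl⟩ := Finset.mem_image.1 hD'
    have := Ex_ind_subset' p (g • D) (fun _ => 1)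
    simp only [mul_one, Ex_const (sum_bw p), Finset.card_smul_finset] at this
    exact this

end Crest.Agent.R55
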