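import Crest.Agent.R55.Ent

/-!
The chain-rule inequality for a random pair of nested sets.
-/

set_option autoImplicit false
set_option linter.unusedSectionVars false

open Finset

namespace Crest.Agent.R55

open Crest.Agent.R52 (ind ind_true ind_false ind_nonneg ind_le_one ind_mono ind_congr ind_and)

/-- The perspective of `w ↦ w ^ (3/2)`. -/
noncomputable def phi (w t : ℝ) : ℝ := w * Real.sqrt (w / t)

lemma phi_nonneg {w : ℝ} (hw : 0 ≤ w) (t : ℝ) : 0 ≤ phi w t :=
  mul_nonneg hw (Real.sqrt_nonneg _)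

lemma sqrt_sq_mul {w t : ℝ} (hw : 0 ≤ w) (hwt : w ≤ t) : Real.sqrt (w / t) ^ 2 * t = w := by
  rcases eq_or_lt_of_le (hw.trans hwt) with h | h
  · have : w = 0 := le_antisymm (h ▸ hwt) hw
    rw [← h, this]; simp
  · rw [Real.sq_sqrt (div_nonneg hw h.le)]
    field_simp

lemma phi_eq {w t : ℝ} (hw : 0 ≤ w) (hwt : w ≤ t) :
    phi w t = 3 / 2 * (w * Real.sqrt (w / t)) - 1 / 2 * (t * Real.sqrt (w / t) ^ 3) := by
  have h := sqrt_sq_mul hw hwt
  have : t * Real.sqrt (w / t) ^ 3 = (Real.sqrt (w / t) ^ 2 * t) * Real.sqrt (w / t) := by ring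
  rw [this, h, phi]
  ring

lemma phi_tangent {w t s : ℝ} (hw : 0 ≤ w) (hwt : w ≤ t) (hs : 0 ≤ s) :
    3 / 2 * (w * s) - 1 / 2 * (t * s ^ 3) ≤ phi w t := by
  have h := sqrt_sq_mul hw hwt
  unfold phi
  have hu := Real.sqrt_nonneg (w / t)
  generalize Real.sqrt (w / t) = u at h hu
  rw [← h]
  have ht : 0 ≤ t := hw.trans hwt
  have : 0 ≤ t * ((u - s) ^ 2 * (u + s / 2)) := by positivity
  nlinarith

lemma phi_pm_le {γ δ : Type} [Fintype γ] [Fintype δ] {W T : δ → ℝ} (hW : ∀ d, 0 ≤ W d)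
    (hWT : ∀ d, W d ≤ T d) (f : δ → γ) :
    ∑ r, phi (pm W f r) (pm T f r) ≤ ∑ d, phi (W d) (T d) := by
  have h1 : ∀ r, phi (pm W f r) (pm T f r) = _ := fun r =>
    phi_eq (pm_nonneg hW f r) (pm_mono hWT f r)
  simp only [h1]
  rw [Finset.sum_sub_distrib, ← Finset.mul_sum, ← Finset.mul_sum,
    sum_pm_mul W f (fun r => Real.sqrt (pm W f r / pm T f r)),
    sum_pm_mul T f (fun r => Real.sqrt (pm W f r / pm T f r) ^ 3), Finset.mul_sum, Finset.mul_sum,
    ← Finset.sum_sub_distrib]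
  exact Finset.sum_le_sum fun d _ => phi_tangent (hW d) (hWT d) (Real.sqrt_nonneg _)

lemma log_four_le : Real.log 4 ≤ 3 / 2 := by
  have h : Real.log 4 = 2 * Real.log 2 := by
    rw [show (4 : ℝ) = 2 ^ 2 by norm_num, Real.log_pow]; norm_num
  have := Real.log_two_lt_d9
  linarith

lemma point3 {A W T : ℝ} (hA : 0 ≤ A) (hAW : A ≤ W) (hWT : W ≤ T) :
    3 * (A + A * (Real.log W - Real.log A)) - A * (Real.log T - Real.log A) ≤
      4 * A + 1 / 2 * phi W T := by
  rcases eq_or_lt_of_le hA with h | h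
  · have := phi_nonneg (hA.trans hAW) T
    rw [← h]; linarith
  · have hW : 0 < W := lt_of_lt_of_le h hAW
    have hT : 0 < T := lt_of_lt_of_le hW hWT
    have hq : 0 < W / T := div_pos hW hT
    have hs : 0 < Real.sqrt (W / T) := Real.sqrt_pos.2 hq
    have hphi : 0 < phi W T := mul_pos hW hs
    have hl : Real.log (phi W T) = (3 * Real.log W - Real.log T) / 2 := by
      rw [phi, Real.log_mul hW.ne' hs.ne', Real.log_sqrt hq.le, Real.log_div hW.ne' hT.ne']
      ring
    have h3 := Real.log_le_sub_one_of_pos (div_pos hphi (mul_pos (by norm_num : (0 : ℝ) < 4) h))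
    rw [Real.log_div hphi.ne' (by positivity), Real.log_mul (by norm_num) h.ne', hl] at h3
    have h4 : A * (phi W T / (4 * A)) = phi W T / 4 := by field_simp
    have h5 := mul_le_mul_of_nonneg_left h3 hA
    have h6 := mul_le_mul_of_nonneg_left log_four_le hA
    nlinarith

section step

variable {Ω β γ δ : Type} [Fintype Ω] [Fintype β] [Fintype γ] [Fintype δ]

lemma step_lower {P : Ω → ℝ} (hP : ∀ ω, 0 ≤ P ω) (ρ : Ω → γ) (Y : Ω → Bool) :
    ∑ r, pm (fun ω => P ω * ind (Y ω = true)) ρ r *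
        (Real.log (pm P ρ r) - Real.log (pm (fun ω => P ω * ind (Y ω = true)) ρ r)) ≤
      ent (pm P (fun ω => (ρ ω, Y ω))) - ent (pm P ρ) := by
  rw [sum_pm_mul (fun ω => P ω * ind (Y ω = true)) ρ
    (fun r => Real.log (pm P ρ r) - Real.log (pm (fun ω => P ω * ind (Y ω = true)) ρ r)),
    ent_pm, ent_pm, ← Finset.sum_sub_distrib]
  refine Finset.sum_le_sum fun ω _ => ?_
  by_cases hY : Y ω = true
  · have : pm P (fun ω => (ρ ω, Y ω)) (ρ ω, Y ω) = pm (fun ω => P ω * ind (Y ω = true)) ρ (ρ ω) := by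
      refine Finset.sum_congr rfl fun ω' _ => ?_
      rw [mul_assoc, ← ind_and, hY]
      congr 1
      exact ind_congr (by simp [and_comm])
    rw [this, ind_true hY]
    exact le_of_eq (by ring)
  · rw [ind_false hY]
    by_cases h0 : P ω = 0
    · simp [h0]
    · have h1 := pm_pos hP (fun ω => (ρ ω, Y ω)) h0
      have h2 : pm P (fun ω => (ρ ω, Y ω)) (ρ ω, Y ω) ≤ pm P ρ (ρ ω) :=
        Finset.sum_le_sum fun ω' _ => mul_le_mul_of_nonneg_left
          (ind_mono fun h => (Prod.mk.inj h).1) (hP ω')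
      have h3 := Real.log_le_log h1 h2
      have := mul_le_mul_of_nonneg_left h3 (hP ω)
      nlinarith

lemma step_upper {P : Ω → ℝ} (hP : ∀ ω, 0 ≤ P ω) (B : Ω → β) (ρ : Ω → γ) (Y : Ω → Bool)
    (z : β → Prop) (hYZ : ∀ ω, P ω ≠ 0 → Y ω = true → z (B ω)) :
    ent (pm P (fun ω => ((B ω, ρ ω), Y ω))) - ent (pm P (fun ω => (B ω, ρ ω))) ≤
      ∑ r, (pm (fun ω => P ω * ind (Y ω = true)) ρ r + pm (fun ω => P ω * ind (Y ω = true)) ρ r *
        (Real.log (pm (fun ω => P ω * ind (z (B ω))) ρ r) -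
          Real.log (pm (fun ω => P ω * ind (Y ω = true)) ρ r))) := by
  set PY : Ω → ℝ := fun ω => P ω * ind (Y ω = true) with hPY
  set PZ : Ω → ℝ := fun ω => P ω * ind (z (B ω)) with hPZ
  have hPY0 : ∀ ω, 0 ≤ PY ω := fun ω => mul_nonneg (hP ω) (ind_nonneg _)
  have hPZ0 : ∀ ω, 0 ≤ PZ ω := fun ω => mul_nonneg (hP ω) (ind_nonneg _)
  have hYZ' : ∀ ω, PY ω ≤ PZ ω := fun ω => by
    by_cases h0 : P ω = 0
    · simp [hPY, hPZ, h0]
    · exact mul_le_mul_of_nonneg_left (ind_mono (hYZ ω h0)) (hP ω)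
  set A := pm PY ρ with hA
  set W := pm PZ ρ with hW
  have hA0 : ∀ r, 0 ≤ A r := pm_nonneg hPY0 ρ
  have hAW : ∀ r, A r ≤ W r := pm_mono hYZ' ρ
  set x : γ → ℝ := fun r => A r / W r with hx
  have hx0 : ∀ r, 0 ≤ x r := fun r => div_nonneg (hA0 r) ((hA0 r).trans (hAW r))
  set M := pm P (fun ω => (B ω, ρ ω)) with hM
  have hM0 : ∀ y, 0 ≤ M y := pm_nonneg hP _
  set q : (β × γ) × Bool → ℝ := fun y => M y.1 * (Real.exp (-(ind (z y.1.1) * x y.1.2)) *
    (if y.2 = true then ind (z y.1.1) * x y.1.2 else 1)) with hq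
  have hxpos : ∀ ω, P ω ≠ 0 → Y ω = true → 0 < x (ρ ω) := fun ω h0 hY => by
    have h1 : 0 < A (ρ ω) := pm_pos hPY0 ρ (by simp [hPY, ind_true hY, h0])
    exact div_pos h1 (lt_of_lt_of_le h1 (hAW _))
  have hg := gibbs_pm hP (fun ω => ((B ω, ρ ω), Y ω)) (q := q)
    (fun y => mul_nonneg (hM0 _) (mul_nonneg (Real.exp_pos _).le (by
      split_ifs
      · exact mul_nonneg (ind_nonneg _) (hx0 _)
      · exact zero_le_one)))
    (fun ω h0 => mul_pos (pm_pos hP (fun ω => (B ω, ρ ω)) h0) (mul_pos (Real.exp_pos _) (by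
      split_ifs with hY
      · rw [ind_true (hYZ ω h0 hY), one_mul]
        exact hxpos ω h0 hY
      · exact zero_lt_one)))
  have h1 : ∑ y, q y ≤ ∑ ω, P ω := by
    rw [← sum_pm P (fun ω => (B ω, ρ ω)), Fintype.sum_prod_type]
    refine Finset.sum_le_sum fun y _ => ?_
    simp only [hq, Fintype.sum_bool, if_true, Bool.false_eq_true, if_false]
    have hu : 0 ≤ ind (z y.1) * x y.2 := mul_nonneg (ind_nonneg _) (hx0 _)
    generalize ind (z y.1) * x y.2 = u at hu
    have h2 := Real.add_one_le_exp u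
    have h3 : Real.exp (-u) * Real.exp u = 1 := by rw [← Real.exp_add]; simp
    have h4 := mul_le_mul_of_nonneg_left h2 (Real.exp_pos (-u)).le
    have h5 : Real.exp (-u) * u + Real.exp (-u) * 1 ≤ 1 := by linarith
    have := mul_le_mul_of_nonneg_left h5 (hM0 y)
    linarith
  have h2 : ∑ ω, P ω * -Real.log (q ((B ω, ρ ω), Y ω)) =
      ent M + ∑ r, W r * x r + ∑ r, A r * -Real.log (x r) := by
    rw [hM, ent_pm, hW, hA, sum_pm_mul PZ ρ x, sum_pm_mul PY ρ (fun r => -Real.log (x r)),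
      ← Finset.sum_add_distrib, ← Finset.sum_add_distrib]
    refine Finset.sum_congr rfl fun ω _ => ?_
    by_cases h0 : P ω = 0
    · simp [hPY, hPZ, h0]
    · have p1 : 0 < M (B ω, ρ ω) := pm_pos hP (fun ω => (B ω, ρ ω)) h0
      simp only [hq, hPY, hPZ]
      by_cases hY : Y ω = true
      · have p2 := hxpos ω h0 hY
        rw [if_pos hY, ind_true hY, ind_true (hYZ ω h0 hY), one_mul,
          Real.log_mul p1.ne' (mul_pos (Real.exp_pos _) p2).ne',
          Real.log_mul (Real.exp_pos _).ne' p2.ne', Real.log_exp]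
        ring
      · rw [if_neg hY, ind_false hY, mul_one, Real.log_mul p1.ne' (Real.exp_pos _).ne',
          Real.log_exp]
        ring
  have h3 : ∑ r, W r * x r + ∑ r, A r * -Real.log (x r) =
      ∑ r, (A r + A r * (Real.log (W r) - Real.log (A r))) := by
    rw [← Finset.sum_add_distrib]
    refine Finset.sum_congr rfl fun r _ => ?_
    rcases eq_or_lt_of_le (hA0 r) with h | h
    · simp [hx, ← h]
    · have hWr : 0 < W r := lt_of_lt_of_le h (hAW r)
      simp only [hx]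
      rw [Real.log_div h.ne' hWr.ne']
      field_simp
      ring
  linarith

lemma step {P : Ω → ℝ} (hP : ∀ ω, 0 ≤ P ω) (B : Ω → β) (D : Ω → δ) (f : δ → γ) (Y : Ω → Bool)
    (z : β → Prop) (hYZ : ∀ ω, P ω ≠ 0 → Y ω = true → z (B ω)) :
    3 * (ent (pm P (fun ω => ((B ω, f (D ω)), Y ω))) - ent (pm P (fun ω => (B ω, f (D ω))))) -
      (ent (pm P (fun ω => (f (D ω), Y ω))) - ent (pm P (fun ω => f (D ω)))) ≤
      4 * ∑ ω, P ω * ind (Y ω = true) +
        1 / 2 * ∑ d, phi (pm (fun ω => P ω * ind (z (B ω))) D d) (pm P D d) := by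
  have h1 := step_lower hP (fun ω => f (D ω)) Y
  have h2 := step_upper hP B (fun ω => f (D ω)) Y z hYZ
  set PY : Ω → ℝ := fun ω => P ω * ind (Y ω = true) with hPY
  set PZ : Ω → ℝ := fun ω => P ω * ind (z (B ω)) with hPZ
  have hPY0 : ∀ ω, 0 ≤ PY ω := fun ω => mul_nonneg (hP ω) (ind_nonneg _)
  have hPZ0 : ∀ ω, 0 ≤ PZ ω := fun ω => mul_nonneg (hP ω) (ind_nonneg _)
  have hYZ' : ∀ ω, PY ω ≤ PZ ω := fun ω => by
    by_cases h0 : P ω = 0
    · simp [hPY, hPZ, h0]
    · exact mul_le_mul_of_nonneg_left (ind_mono (hYZ ω h0)) (hP ω)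
  have hZP : ∀ ω, PZ ω ≤ P ω := fun ω => mul_le_of_le_one_right (hP ω) (ind_le_one _)
  have h3 := phi_pm_le (pm_nonneg hPZ0 D) (pm_mono hZP D) f
  rw [pm_comp, pm_comp] at h3
  have h4 := Finset.sum_le_sum (s := Finset.univ) fun r _ =>
    point3 (pm_nonneg hPY0 (fun ω => f (D ω)) r) (pm_mono hYZ' (fun ω => f (D ω)) r)
      (pm_mono hZP (fun ω => f (D ω)) r)
  rw [Finset.sum_sub_distrib, ← Finset.mul_sum, Finset.sum_add_distrib (f := fun r => 4 * _),
    ← Finset.mul_sum, ← Finset.mul_sum, sum_pm] at h4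
  linarith

end step

/-- The chain-rule inequality. -/
theorem chain {Ω V : Type} [Fintype Ω] [Fintype V] [DecidableEq V] {P : Ω → ℝ}
    (hP : ∀ ω, 0 ≤ P ω) (h1 : ∑ ω, P ω = 1) (B D : Ω → Finset V)
    (hDB : ∀ ω, P ω ≠ 0 → D ω ⊆ B ω) :
    3 * (ent (pm P (fun ω => (B ω, D ω))) - ent (pm P B)) - ent (pm P D) ≤
      4 * ∑ e, ∑ ω, P ω * ind (e ∈ D ω) +
        1 / 2 * ∑ e, ∑ d, phi (pm (fun ω => P ω * ind (e ∈ B ω)) D d) (pm P D d) := by
  have key : ∀ S : Finset V,
      3 * (ent (pm P (fun ω => (B ω, D ω ∩ S))) - ent (pm P B)) - ent (pm P (fun ω => D ω ∩ S)) ≤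
      4 * ∑ e ∈ S, ∑ ω, P ω * ind (e ∈ D ω) +
        1 / 2 * ∑ e ∈ S, ∑ d, phi (pm (fun ω => P ω * ind (e ∈ B ω)) D d) (pm P D d) := by
    intro S
    induction S using Finset.induction_on with
    | empty =>
      have e1 : ent (pm P (fun ω => (B ω, D ω ∩ ∅))) = ent (pm P B) :=
        ent_pm_congr P _ _ (by simp)
      have e2 : ent (pm P (fun ω => D ω ∩ ∅)) = 0 := by
        rw [ent_pm]
        refine Finset.sum_eq_zero fun ω _ => ?_
        have : pm P (fun ω => D ω ∩ ∅) (D ω ∩ ∅) = 1 := by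
          rw [← h1]
          exact Finset.sum_congr rfl fun ω' _ => by rw [ind_true (by simp), mul_one]
        rw [this]; simp
      rw [e1, e2]; simp
    | insert e S he ih =>
      have hs := step hP B D (fun d => d ∩ S) (fun ω => decide (e ∈ D ω)) (fun b => e ∈ b)
        (fun ω h0 hY => hDB ω h0 (by simpa using hY))
      have hiff : ∀ X Y : Finset V, X ∩ insert e S = Y ∩ insert e S ↔
          X ∩ S = Y ∩ S ∧ decide (e ∈ X) = decide (e ∈ Y) := by
        intro X Y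
        simp only [Finset.ext_iff, Finset.mem_inter, Finset.mem_insert, decide_eq_decide]
        constructor
        · intro h
          refine ⟨fun a => ?_, ?_⟩
          · have := h a; tauto
          · have := h e; tauto
        · rintro ⟨h, h'⟩ a
          by_cases ha : a = e
          · subst ha; tauto
          · have := h a; tauto
      have e1 : ent (pm P (fun ω => (B ω, D ω ∩ insert e S))) =
          ent (pm P (fun ω => ((B ω, D ω ∩ S), decide (e ∈ D ω)))) :=
        ent_pm_congr P _ _ (fun ω ω' => by simp only [Prod.mk.injEq, hiff, and_assoc])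
      have e2 : ent (pm P (fun ω => D ω ∩ insert e S)) =
          ent (pm P (fun ω => (D ω ∩ S, decide (e ∈ D ω)))) :=
        ent_pm_congr P _ _ (fun ω ω' => by simp only [Prod.mk.injEq, hiff])
      simp only [decide_eq_true_eq] at hs
      rw [e1, e2, Finset.sum_insert he, Finset.sum_insert he]
      linarith
  simpa using key Finset.univ

end Crest.Agent.R55
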