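import Crest.Agent.R52.Prob

/-!
Finite entropy toolkit: push-forward of weights, entropy, the Gibbs inequality,
symmetrisation under a finite group.
-/

set_option autoImplicit false
set_option linter.unusedSectionVars false

open Finset

namespace Crest.Agent.R55

open Crest.Agent.R52 (ind ind_true ind_false ind_nonneg ind_le_one ind_mono ind_congr ind_and)

section basic

variable {Ω α β : Type} [Fintype Ω] [Fintype α] [Fintype β]

/-- Push-forward of the weight `P` along `X`. -/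
noncomputable def pm (P : Ω → ℝ) (X : Ω → α) (a : α) : ℝ := ∑ ω, P ω * ind (X ω = a)

/-- Shannon entropy of a weight function. -/
noncomputable def ent (μ : α → ℝ) : ℝ := ∑ a, μ a * (-Real.log (μ a))

lemma sum_ind_eq (x : α) (f : α → ℝ) : ∑ a, ind (x = a) * f a = f x := by
  rw [Finset.sum_eq_single x]
  · rw [ind_true rfl, one_mul]
  · intro b _ hb
    rw [ind_false (Ne.symm hb), zero_mul]
  · simp

lemma sum_pm_mul (P : Ω → ℝ) (X : Ω → α) (f : α → ℝ) :
    ∑ a, pm P X a * f a = ∑ ω, P ω * f (X ω) := by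
  simp only [pm, Finset.sum_mul]
  rw [Finset.sum_comm]
  refine Finset.sum_congr rfl fun ω _ => ?_
  simp only [mul_assoc]
  rw [← Finset.mul_sum, sum_ind_eq]

lemma sum_pm (P : Ω → ℝ) (X : Ω → α) : ∑ a, pm P X a = ∑ ω, P ω := by
  simpa using sum_pm_mul P X (fun _ => 1)

lemma pm_nonneg {P : Ω → ℝ} (hP : ∀ ω, 0 ≤ P ω) (X : Ω → α) (a : α) : 0 ≤ pm P X a :=
  Finset.sum_nonneg fun ω _ => mul_nonneg (hP ω) (ind_nonneg _)

lemma le_pm {P : Ω → ℝ} (hP : ∀ ω, 0 ≤ P ω) (X : Ω → α) (ω : Ω) : P ω ≤ pm P X (X ω) := by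
  have := Finset.single_le_sum (f := fun ω' => P ω' * ind (X ω' = X ω))
    (fun ω' _ => mul_nonneg (hP ω') (ind_nonneg _)) (Finset.mem_univ ω)
  rw [ind_true rfl, mul_one] at this
  exact this

lemma pm_pos {P : Ω → ℝ} (hP : ∀ ω, 0 ≤ P ω) (X : Ω → α) {ω : Ω} (h : P ω ≠ 0) :
    0 < pm P X (X ω) :=
  lt_of_lt_of_le (lt_of_le_of_ne (hP ω) (Ne.symm h)) (le_pm hP X ω)

lemma exists_of_pm_ne_zero {P : Ω → ℝ} {X : Ω → α} {a : α} (h : pm P X a ≠ 0) :
    ∃ ω, P ω ≠ 0 ∧ X ω = a := by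
  obtain ⟨ω, _, hω⟩ := Finset.exists_ne_zero_of_sum_ne_zero h
  refine ⟨ω, left_ne_zero_of_mul hω, ?_⟩
  by_contra hc
  rw [ind_false hc, mul_zero] at hω
  exact hω rfl

lemma pm_comp (P : Ω → ℝ) (X : Ω → α) (f : α → β) :
    pm (pm P X) f = pm P (fun ω => f (X ω)) := by
  funext b
  exact sum_pm_mul P X (fun a => ind (f a = b))

lemma pm_mono {P Q : Ω → ℝ} (h : ∀ ω, P ω ≤ Q ω) (X : Ω → α) (a : α) : pm P X a ≤ pm Q X a :=
  Finset.sum_le_sum fun ω _ => mul_le_mul_of_nonneg_right (h ω) (ind_nonneg _)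

lemma ent_pm (P : Ω → ℝ) (X : Ω → α) :
    ent (pm P X) = ∑ ω, P ω * (-Real.log (pm P X (X ω))) :=
  sum_pm_mul P X (fun a => -Real.log (pm P X a))

lemma ent_pm_congr (P : Ω → ℝ) (X : Ω → α) (Y : Ω → β)
    (h : ∀ ω ω', X ω = X ω' ↔ Y ω = Y ω') : ent (pm P X) = ent (pm P Y) := by
  rw [ent_pm, ent_pm]
  refine Finset.sum_congr rfl fun ω _ => ?_
  have : pm P X (X ω) = pm P Y (Y ω) :=
    Finset.sum_congr rfl fun ω' _ => by rw [ind_congr (h ω' ω)]
  rw [this]

lemma pm_id (μ : α → ℝ) : pm μ (fun a => a) = μ := by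
  funext a
  unfold pm
  rw [Finset.sum_eq_single a]
  · rw [ind_true rfl, mul_one]
  · intro b _ hb
    rw [ind_false hb, mul_zero]
  · simp

lemma pm_fst (ν : α × β → ℝ) (a : α) : pm ν Prod.fst a = ∑ b, ν (a, b) := by
  unfold pm
  rw [Fintype.sum_prod_type, Finset.sum_eq_single a]
  · simp [ind_true]
  · intro a' _ ha
    simp [ind_false ha]
  · simp

lemma pm_snd (ν : α × β → ℝ) (b : β) : pm ν Prod.snd b = ∑ a, ν (a, b) := by
  unfold pm
  rw [Fintype.sum_prod_type_right, Finset.sum_eq_single b]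
  · simp [ind_true]
  · intro b' _ hb
    simp [ind_false hb]
  · simp

/-- The Gibbs inequality, unnormalised. -/
lemma gibbs {μ q : α → ℝ} (hμ : ∀ a, 0 ≤ μ a) (hq : ∀ a, 0 ≤ q a)
    (hpos : ∀ a, μ a ≠ 0 → 0 < q a) :
    ent μ ≤ ∑ a, μ a * (-Real.log (q a)) + (∑ a, q a - ∑ a, μ a) := by
  unfold ent
  rw [← Finset.sum_sub_distrib, ← Finset.sum_add_distrib]
  refine Finset.sum_le_sum fun a _ => ?_
  by_cases h : μ a = 0
  · simp [h, hq a]
  · have h1 : 0 < μ a := lt_of_le_of_ne (hμ a) (Ne.symm h)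
    have h2 := hpos a h
    have h3 := Real.log_le_sub_one_of_pos (div_pos h2 h1)
    rw [Real.log_div h2.ne' h1.ne'] at h3
    have h4 : μ a * (q a / μ a) = q a := by field_simp
    nlinarith [mul_le_mul_of_nonneg_left h3 h1.le]

/-- Gibbs for a random variable. -/
lemma gibbs_pm {P : Ω → ℝ} (hP : ∀ ω, 0 ≤ P ω) (X : Ω → α) {q : α → ℝ} (hq : ∀ a, 0 ≤ q a)
    (hpos : ∀ ω, P ω ≠ 0 → 0 < q (X ω)) :
    ent (pm P X) ≤ ∑ ω, P ω * (-Real.log (q (X ω))) + (∑ a, q a - ∑ ω, P ω) := by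
  have := gibbs (pm_nonneg hP X) hq (fun a ha => by
    obtain ⟨ω, h1, rfl⟩ := exists_of_pm_ne_zero ha
    exact hpos ω h1)
  rwa [sum_pm, sum_pm_mul P X (fun a => -Real.log (q a))] at this

end basic

section sym

variable (G : Type) [Group G] [Fintype G]
variable {α β : Type} [Fintype α] [Fintype β] [MulAction G α] [MulAction G β]

/-- Symmetrisation of a weight under the group `G`. -/
noncomputable def sym (μ : α → ℝ) (a : α) : ℝ := (∑ g : G, μ (g • a)) / Fintype.card G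

/-- Entropy of the symmetrisation, as a cross entropy. -/
noncomputable def sent (μ : α → ℝ) : ℝ := ∑ a, μ a * (-Real.log (sym G μ a))

variable {G}

lemma card_pos' : (0 : ℝ) < Fintype.card G := by exact_mod_cast Fintype.card_pos

lemma sym_smul (μ : α → ℝ) (g : G) (a : α) : sym G μ (g • a) = sym G μ a := by
  unfold sym
  congr 1
  simp only [smul_smul]
  exact Equiv.sum_comp (Equiv.mulRight g) (fun h => μ (h • a))

lemma sym_nonneg {μ : α → ℝ} (hμ : ∀ a, 0 ≤ μ a) (a : α) : 0 ≤ sym G μ a :=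
  div_nonneg (Finset.sum_nonneg fun _ _ => hμ _) card_pos'.le

lemma sym_pos {μ : α → ℝ} (hμ : ∀ a, 0 ≤ μ a) {a : α} (h : μ a ≠ 0) : 0 < sym G μ a := by
  refine div_pos ?_ card_pos'
  have := Finset.single_le_sum (f := fun g : G => μ (g • a)) (fun g _ => hμ _) (Finset.mem_univ 1)
  simp only [one_smul] at this
  exact lt_of_lt_of_le (lt_of_le_of_ne (hμ a) (Ne.symm h)) this

lemma exists_of_sym_ne_zero {μ : α → ℝ} {a : α} (h : sym G μ a ≠ 0) : ∃ g : G, μ (g • a) ≠ 0 := by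
  have : ∑ g : G, μ (g • a) ≠ 0 := fun h0 => h (by unfold sym; rw [h0, zero_div])
  obtain ⟨g, _, hg⟩ := Finset.exists_ne_zero_of_sum_ne_zero this
  exact ⟨g, hg⟩

lemma sum_sym_mul (μ : α → ℝ) {f : α → ℝ} (hf : ∀ (g : G) a, f (g • a) = f a) :
    ∑ a, sym G μ a * f a = ∑ a, μ a * f a := by
  have h : ∀ g : G, ∑ a, μ (g • a) * f a = ∑ a, μ a * f a := fun g => by
    rw [← Equiv.sum_comp (MulAction.toPerm g) (fun a => μ a * f a)]
    simp only [MulAction.toPerm_apply, hf]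
  simp only [sym, div_mul_eq_mul_div, Finset.sum_mul]
  rw [← Finset.sum_div, Finset.sum_comm]
  simp only [h, Finset.sum_const, Finset.card_univ, nsmul_eq_mul]
  field_simp [(card_pos' (G := G)).ne']

lemma sum_sym (μ : α → ℝ) : ∑ a, sym G μ a = ∑ a, μ a := by
  simpa using sum_sym_mul (G := G) μ (f := fun _ => 1) (fun _ _ => rfl)

lemma sent_eq (μ : α → ℝ) : sent G μ = ent (sym G μ) :=
  (sum_sym_mul μ (f := fun a => -Real.log (sym G μ a)) (fun g a => by rw [sym_smul])).symm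

lemma pm_sym (μ : α → ℝ) {f : α → β} (hf : ∀ (g : G) a, f (g • a) = g • f a) :
    pm (sym G μ) f = sym G (pm μ f) := by
  funext b
  simp only [pm, sym, div_mul_eq_mul_div, Finset.sum_mul]
  rw [← Finset.sum_div, Finset.sum_comm]
  congr 1
  refine Finset.sum_congr rfl fun g _ => ?_
  rw [← Equiv.sum_comp (MulAction.toPerm g) (fun a => μ a * ind (f a = g • b))]
  refine Finset.sum_congr rfl fun a _ => ?_
  simp only [MulAction.toPerm_apply, hf, smul_left_cancel_iff]

/-- Gibbs for the symmetrised entropy. -/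
lemma gibbs_sym {μ q : α → ℝ} (hμ : ∀ a, 0 ≤ μ a) (hq : ∀ a, 0 ≤ q a)
    (hinv : ∀ (g : G) a, q (g • a) = q a) (hpos : ∀ a, μ a ≠ 0 → 0 < q a) :
    sent G μ ≤ ∑ a, μ a * (-Real.log (q a)) + (∑ a, q a - ∑ a, μ a) := by
  have := gibbs (sym_nonneg (G := G) hμ) hq (fun a ha => by
    obtain ⟨g, hg⟩ := exists_of_sym_ne_zero ha
    rw [← hinv g a]
    exact hpos _ hg)
  rwa [sum_sym, sum_sym_mul μ (f := fun a => -Real.log (q a)) (fun g a => by rw [hinv]),
    ← sent_eq] at this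

/-- Data processing. -/
lemma data_proc {μ : α → ℝ} (hμ : ∀ a, 0 ≤ μ a) {f : α → β}
    (hf : ∀ (g : G) a, f (g • a) = g • f a) :
    sent G (pm μ f) - ent (pm μ f) ≤ sent G μ - ent μ := by
  have hν := pm_nonneg hμ f
  have h := gibbs (q := fun a => pm μ f (f a) * sym G μ a / sym G (pm μ f) (f a)) hμ
    (fun a => div_nonneg (mul_nonneg (hν _) (sym_nonneg hμ a)) (sym_nonneg hν _))
    (fun a ha => div_pos (mul_pos (pm_pos hμ f ha) (sym_pos hμ ha))
      (sym_pos hν (pm_pos hμ f ha).ne'))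
  have h1 : ∑ a, pm μ f (f a) * sym G μ a / sym G (pm μ f) (f a) ≤ ∑ a, μ a := by
    have e : ∑ a, pm μ f (f a) * sym G μ a / sym G (pm μ f) (f a) =
        ∑ b, pm (sym G μ) f b * (pm μ f b / sym G (pm μ f) b) := by
      rw [sum_pm_mul]
      exact Finset.sum_congr rfl fun a _ => by ring
    rw [e, pm_sym μ hf, ← sum_pm μ f]
    refine Finset.sum_le_sum fun b _ => ?_
    by_cases hb : sym G (pm μ f) b = 0
    · rw [hb, zero_mul]; exact hν b
    · exact le_of_eq (by field_simp)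
  have h2 : ∑ a, μ a * -Real.log (pm μ f (f a) * sym G μ a / sym G (pm μ f) (f a)) =
      ent (pm μ f) + sent G μ - sent G (pm μ f) := by
    rw [ent_pm, sent, sent, sum_pm_mul μ f (fun b => -Real.log (sym G (pm μ f) b)),
      ← Finset.sum_add_distrib, ← Finset.sum_sub_distrib]
    refine Finset.sum_congr rfl fun a _ => ?_
    by_cases ha : μ a = 0
    · simp [ha]
    · have p1 := pm_pos hμ f ha
      have p2 := sym_pos (G := G) hμ ha
      have p3 := sym_pos (G := G) hν p1.ne'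
      rw [Real.log_div (mul_pos p1 p2).ne' p3.ne', Real.log_mul p1.ne' p2.ne']
      ring
  linarith

/-- A symmetrised weight times the orbit size is at most the total mass. -/
lemma sym_mul_orbit_le [DecidableEq α] {μ : α → ℝ} (hμ : ∀ a, 0 ≤ μ a) (a : α) :
    sym G μ a * ((Finset.univ.image (fun g : G => g • a)).card : ℝ) ≤ ∑ a, μ a := by
  rw [← sum_sym (G := G) μ]
  calc sym G μ a * ((Finset.univ.image (fun g : G => g • a)).card : ℝ)
      = ∑ b ∈ Finset.univ.image (fun g : G => g • a), sym G μ b := by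
        rw [Finset.sum_congr rfl (g := fun _ => sym G μ a)]
        · simp [mul_comm]
        · intro b hb
          obtain ⟨g, _, rfl⟩ := Finset.mem_image.1 hb
          exact sym_smul μ g a
    _ ≤ ∑ b, sym G μ b :=
        Finset.sum_le_sum_of_subset_of_nonneg (Finset.subset_univ _)
          fun b _ _ => sym_nonneg hμ b

end sym

end Crest.Agent.R55
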