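import Crest.Agent.R55.Chain

/-!
The extremal law on subsets of a fixed set.
-/

set_option autoImplicit false
set_option linter.unusedSectionVars false

open Finset Pointwise

namespace Crest.Agent.R55

open Crest.Agent.R52 (ind ind_true ind_false ind_nonneg ind_le_one ind_mono ind_congr ind_and)

variable {V : Type} [Fintype V] [DecidableEq V]

/-- Mass of the sets containing `e`. -/
noncomputable def wt (μ : Finset V → ℝ) (e : V) : ℝ := ∑ B, μ B * ind (e ∈ B)

/-- Mean size. -/
noncomputable def sz (μ : Finset V → ℝ) : ℝ := ∑ B, μ B * (B.card : ℝ)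

/-- The penalty term. -/
noncomputable def psi (μ : Finset V → ℝ) : ℝ := ∑ e, phi (wt μ e) (∑ B, μ B)

/-- Nonnegative weights on subsets of `H`. -/
structure Adm (H : Finset V) (μ : Finset V → ℝ) : Prop where
  nonneg : ∀ B, 0 ≤ μ B
  sub : ∀ B, μ B ≠ 0 → B ⊆ H

lemma card_eq_sum_ind (B : Finset V) : (B.card : ℝ) = ∑ e, ind (e ∈ B) := by
  rw [Crest.Agent.R52.sum_ind_eq_card]
  simp

lemma sz_eq (μ : Finset V → ℝ) : sz μ = ∑ e, wt μ e := by
  simp only [sz, wt, card_eq_sum_ind, Finset.mul_sum]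
  exact Finset.sum_comm

lemma wt_nonneg {μ : Finset V → ℝ} (hμ : ∀ B, 0 ≤ μ B) (e : V) : 0 ≤ wt μ e :=
  Finset.sum_nonneg fun B _ => mul_nonneg (hμ B) (ind_nonneg _)

lemma wt_le {μ : Finset V → ℝ} (hμ : ∀ B, 0 ≤ μ B) (e : V) : wt μ e ≤ ∑ B, μ B :=
  Finset.sum_le_sum fun B _ => mul_le_of_le_one_right (hμ B) (ind_le_one _)

lemma psi_nonneg {μ : Finset V → ℝ} (hμ : ∀ B, 0 ≤ μ B) : 0 ≤ psi μ :=
  Finset.sum_nonneg fun e _ => phi_nonneg (wt_nonneg hμ e) _

lemma wt_pm {Ω : Type} [Fintype Ω] (P : Ω → ℝ) (X : Ω → Finset V) (e : V) :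
    wt (pm P X) e = ∑ ω, P ω * ind (e ∈ X ω) :=
  sum_pm_mul P X (fun B => ind (e ∈ B))

lemma sz_pm {Ω : Type} [Fintype Ω] (P : Ω → ℝ) (X : Ω → Finset V) :
    sz (pm P X) = ∑ ω, P ω * ((X ω).card : ℝ) :=
  sum_pm_mul P X (fun B => (B.card : ℝ))

lemma adm_pm {Ω : Type} [Fintype Ω] {P : Ω → ℝ} (hP : ∀ ω, 0 ≤ P ω) {H : Finset V}
    {X : Ω → Finset V} (h : ∀ ω, P ω ≠ 0 → X ω ⊆ H) : Adm H (pm P X) :=
  ⟨pm_nonneg hP X, fun B hB => by
    obtain ⟨ω, h1, rfl⟩ := exists_of_pm_ne_zero hB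
    exact h ω h1⟩

variable (G : Type) [Group G] [Fintype G] [MulAction G V]

/-- The constant `c` dominates every admissible weight. -/
def Good (H : Finset V) (c : ℝ) : Prop :=
  ∀ μ, Adm H μ → psi μ ≤ c * sz μ + (sent G μ - ent μ)

variable {G}

lemma continuous_ent {α : Type} [Fintype α] : Continuous (ent : (α → ℝ) → ℝ) := by
  have : (ent : (α → ℝ) → ℝ) = fun μ => ∑ a, Real.negMulLog (μ a) := by
    funext μ
    exact Finset.sum_congr rfl fun a _ => by rw [Real.negMulLog]; ring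
  rw [this]
  exact continuous_finsetSum _ fun a _ => Real.continuous_negMulLog.comp (continuous_apply a)

lemma phi_scale {w t s : ℝ} (hw : 0 ≤ w) (hs : 0 < s) (hst : s ≤ t) :
    phi (s * w) t ≤ s * phi w 1 := by
  unfold phi
  rw [mul_assoc]
  refine mul_le_mul_of_nonneg_left (mul_le_mul_of_nonneg_left (Real.sqrt_le_sqrt ?_) hw) hs.le
  rw [div_one, div_le_iff₀ (lt_of_lt_of_le hs hst)]
  nlinarith

theorem exists_extremal {H : Finset V} (hH : H.Nonempty) :
    ∃ c : ℝ, Good G H c ∧ ∃ μ, Adm H μ ∧ ∑ B, μ B = 1 ∧ μ ∅ = 0 ∧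
      psi μ = c * sz μ + (sent G μ - ent μ) := by
  let K : Set (Finset V → ℝ) := stdSimplex ℝ (Finset V) ∩
    ({μ | μ ∅ = 0} ∩ ⋂ B ∈ {B : Finset V | ¬ B ⊆ H}, {μ | μ B = 0})
  have hK : ∀ μ, μ ∈ K ↔ Adm H μ ∧ ∑ B, μ B = 1 ∧ μ ∅ = 0 := by
    intro μ
    simp only [K, stdSimplex, Set.mem_inter_iff, Set.mem_ofPred_eq, Set.mem_iInter]
    constructor
    · rintro ⟨⟨h1, h2⟩, h3, h4⟩
      exact ⟨⟨h1, fun B hB => by_contra fun hc => hB (h4 B hc)⟩, h2, h3⟩
    · rintro ⟨⟨h1, h4⟩, h2, h3⟩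
      exact ⟨⟨h1, h2⟩, h3, fun B hB => by_contra fun hc => hB (h4 B hc)⟩
  have hKc : IsCompact K := (isCompact_stdSimplex ℝ _).inter_right
    ((isClosed_eq (continuous_apply _) continuous_const).inter
      (isClosed_biInter fun B _ => isClosed_eq (continuous_apply _) continuous_const))
  have hKne : K.Nonempty := by
    refine ⟨fun B => ind (H = B), (hK _).2 ⟨⟨fun B => ind_nonneg _, fun B hB => ?_⟩, ?_, ?_⟩⟩
    · by_cases h : H = B
      · rw [h]
      · exact absurd (ind_false h) hB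
    · simpa using sum_ind_eq H (fun _ => 1)
    · exact ind_false hH.ne_empty
  have hsz : ∀ μ ∈ K, 1 ≤ sz μ := by
    intro μ hμ
    obtain ⟨h1, h2, h3⟩ := (hK μ).1 hμ
    rw [← h2]
    refine Finset.sum_le_sum fun B _ => ?_
    by_cases hB : B = ∅
    · rw [hB, h3]; simp
    · have : (1 : ℝ) ≤ B.card := by
        exact_mod_cast Finset.card_pos.2 (Finset.nonempty_iff_ne_empty.2 hB)
      exact le_mul_of_one_le_right (h1.nonneg B) this
  let f : (Finset V → ℝ) → ℝ := fun μ =>
    (∑ e, phi (wt μ e) 1 - (ent (sym G μ) - ent μ)) / sz μ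
  have hf : ContinuousOn f K := by
    refine ContinuousOn.div (Continuous.continuousOn ?_) (Continuous.continuousOn ?_)
      (fun μ hμ => by have := hsz μ hμ; linarith)
    · have h1 : Continuous (fun μ : Finset V → ℝ => sym G μ) := by
        unfold sym
        fun_prop
      refine Continuous.sub ?_ ((continuous_ent.comp h1).sub continuous_ent)
      unfold phi wt
      fun_prop
    · unfold sz
      fun_prop
  obtain ⟨μ₀, hμ₀, hmax⟩ := hKc.exists_isMaxOn hKne hf
  have hK' : ∀ μ ∈ K, ∑ e, phi (wt μ e) 1 ≤ f μ₀ * sz μ + (sent G μ - ent μ) := by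
    intro μ hμ
    have h1 : f μ ≤ f μ₀ := hmax hμ
    have h2 := hsz μ hμ
    simp only [f] at h1
    rw [div_le_iff₀ (by linarith)] at h1
    rw [sent_eq]
    simp only [f]
    linarith
  refine ⟨f μ₀, fun μ hμ => ?_, μ₀, ((hK _).1 hμ₀).1, ((hK _).1 hμ₀).2.1, ((hK _).1 hμ₀).2.2, ?_⟩
  · set s : ℝ := ∑ B, μ B * ind (B ≠ ∅) with hs
    have hs0 : 0 ≤ s := Finset.sum_nonneg fun B _ => mul_nonneg (hμ.nonneg B) (ind_nonneg _)
    have hst : s ≤ ∑ B, μ B :=
      Finset.sum_le_sum fun B _ => mul_le_of_le_one_right (hμ.nonneg B) (ind_le_one _)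
    have hsym0 : sym G μ ∅ = μ ∅ := by
      unfold sym
      simp only [Finset.smul_finset_empty, Finset.sum_const, Finset.card_univ, nsmul_eq_mul]
      field_simp [(card_pos' (G := G)).ne']
    rcases eq_or_lt_of_le hs0 with h0 | h0
    · have hz : ∀ B, B ≠ ∅ → μ B = 0 := by
        intro B hB
        have := (Finset.sum_eq_zero_iff_of_nonneg
          (fun B _ => mul_nonneg (hμ.nonneg B) (ind_nonneg (B ≠ ∅)))).1 h0.symm B (Finset.mem_univ _)
        rwa [ind_true hB, mul_one] at this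
      have e1 : ∀ e, wt μ e = 0 := fun e => Finset.sum_eq_zero fun B _ => by
        by_cases hB : B = ∅
        · rw [hB, ind_false (by simp), mul_zero]
        · rw [hz B hB, zero_mul]
      have e2 : sent G μ = ent μ := Finset.sum_congr rfl fun B _ => by
        by_cases hB : B = ∅
        · rw [hB, hsym0]
        · rw [hz B hB, zero_mul, zero_mul]
      rw [psi, sz_eq, e2]
      simp [e1, phi]
    · let ν : Finset V → ℝ := fun B => μ B * ind (B ≠ ∅) / s
      have hν : ν ∈ K := by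
        refine (hK ν).2 ⟨⟨fun B => div_nonneg (mul_nonneg (hμ.nonneg B) (ind_nonneg _)) hs0,
          fun B hB => hμ.sub B fun h => hB (by simp [ν, h])⟩, ?_, ?_⟩
        · simp only [ν]
          rw [← Finset.sum_div, ← hs, div_self h0.ne']
        · simp [ν, ind_false]
      have hν0 := ((hK ν).1 hν).1.nonneg
      have hμν : ∀ B, B ≠ ∅ → μ B = s * ν B := fun B hB => by
        simp only [ν]
        rw [ind_true hB]
        field_simp
      have e1 : ∀ e, wt μ e = s * wt ν e := fun e => by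
        unfold wt
        rw [Finset.mul_sum]
        refine Finset.sum_congr rfl fun B _ => ?_
        by_cases hB : B = ∅
        · rw [hB, ind_false (by simp)]; simp
        · rw [hμν B hB, mul_assoc]
      have e2 : sz μ = s * sz ν := by
        rw [sz_eq, sz_eq, Finset.mul_sum]
        exact Finset.sum_congr rfl fun e _ => e1 e
      have e3 : sent G μ - ent μ = s * (sent G ν - ent ν) := by
        unfold sent ent
        rw [← Finset.sum_sub_distrib, ← Finset.sum_sub_distrib, Finset.mul_sum]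
        refine Finset.sum_congr rfl fun B _ => ?_
        by_cases hB : B = ∅
        · rw [hB, hsym0, ((hK ν).1 hν).2.2]; simp
        · have e4 : sym G μ B = s * sym G ν B := by
            unfold sym
            rw [← mul_div_assoc, Finset.mul_sum]
            congr 1
            exact Finset.sum_congr rfl fun g _ => hμν _ (by simpa using hB)
          rw [e4, hμν B hB]
          by_cases hb : ν B = 0
          · simp [hb]
          · rw [Real.log_mul h0.ne' (sym_pos hν0 hb).ne', Real.log_mul h0.ne' hb]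
            ring
      have h5 := mul_le_mul_of_nonneg_left (hK' ν hν) hs0
      have h6 : psi μ ≤ s * ∑ e, phi (wt ν e) 1 := by
        unfold psi
        rw [Finset.mul_sum]
        refine Finset.sum_le_sum fun e _ => ?_
        rw [e1]
        exact phi_scale (wt_nonneg hν0 e) h0 hst
      rw [e2, e3]
      linarith
  · have h2 := hsz μ₀ hμ₀
    rw [psi, ((hK _).1 hμ₀).2.1, sent_eq]
    simp only [f]
    field_simp
    ring

end Crest.Agent.R55
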