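import Crest.Agent.R55.Bridge

/-!
Assembly of the spread estimate and the spread lemma.
-/

set_option autoImplicit false
set_option linter.unusedSectionVars false

open Finset Pointwise

namespace Crest.Agent.R55

open Crest.Agent.R52 Crest.CombinatoricsR.RandomGraph

theorem final {n : ℕ} {W : Type} [Fintype W] [DecidableEq W] (e : W ↪ Fin n) (H : SimpleGraph W)
    (hne : (slots e H).Nonempty) {h : ℕ} (hcard : (slots e H).card ≤ h) (hh : 1 ≤ h)
    {p : ℝ} (hp0 : 0 ≤ p)
    (hE : ∀ D ⊆ slots e H, (1 : ℝ) / 2 ≤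
      ((Finset.univ.image (fun g : Equiv.Perm (Fin n) => g • D)).card : ℝ) * p ^ D.card) :
    (1 : ℝ) / 2 ≤ gnpProb n (min 1 (2048 * Real.exp 50 * p * (1 + Real.logb 2 (h : ℝ))))
      {G | H.IsContained G} := by
  have hp : 0 < p := by
    refine lt_of_le_of_ne hp0 fun h0 => ?_
    have := hE _ (Finset.Subset.refl _)
    rw [← h0, zero_pow (Finset.card_pos.2 hne).ne', mul_zero] at this
    norm_num at this
  have hyp : ∀ D ⊆ slots e H, (1 : ℝ) ≤
      ((Finset.univ.image (fun g : Equiv.Perm (Fin n) => g • D)).card : ℝ) * (2 * p) ^ D.card := by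
    intro D hD
    rcases Nat.eq_zero_or_pos D.card with h0 | h0
    · rw [h0, pow_zero, mul_one]
      exact_mod_cast Finset.card_pos.2 (Finset.univ_nonempty.image _)
    · have h1 := hE D hD
      have h2 : (2 : ℝ) ^ 1 ≤ 2 ^ D.card := pow_le_pow_right₀ (by norm_num) h0
      rw [mul_pow, mul_left_comm]
      nlinarith
  set r : ℝ := Real.exp 32 * (2 * p) with hr
  have hr0 : 0 < r := by positivity
  have hsp : Spread (fun _ : Equiv.Perm (Fin n) => 1 / (Fintype.card (Equiv.Perm (Fin n)) : ℝ))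
      (fun g => g⁻¹ • slots e H) r := fun A => by
    have := spread_bound (G := Equiv.Perm (Fin n)) hne (by positivity : 0 < 2 * p) hyp A
    simpa only [Finset.smul_finset_subset_iff] using this
  set L : ℝ := 1 + Real.logb 2 (h : ℝ) with hL
  have hk : ((Nat.log 2 h + 1 : ℕ) : ℝ) ≤ L := by
    have := Real.natLog_le_logb h 2
    push_cast at this ⊢
    linarith
  have hL1 : 1 ≤ L := le_trans (by exact_mod_cast Nat.succ_pos _) hk
  have hc : 16 * r ≤ 2048 * Real.exp 50 * p := by
    have h1 : Real.exp 32 ≤ Real.exp 50 := Real.exp_le_exp.2 (by norm_num)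
    have h2 := mul_le_mul_of_nonneg_right h1 hp0
    have h3 : 0 ≤ Real.exp 50 * p := by positivity
    rw [hr]
    nlinarith
  rw [gnpProb_eq]
  rcases le_or_gt (16 * r) 1 with h16 | h16
  · have h1 := spread_lemma hr0.le h16 (Nat.log 2 h + 1) _ _ (fun _ => by positivity) hsp
      (fun g _ => by
        rw [Finset.card_smul_finset]
        exact lt_of_le_of_lt hcard (Nat.lt_pow_succ_log_self (by norm_num) h))
    have h2 : ∑ _g : Equiv.Perm (Fin n), 1 / (Fintype.card (Equiv.Perm (Fin n)) : ℝ) = 1 := by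
      simp
    rw [h2] at h1
    have h3 : (0 : ℝ) ≤ (1 / 4) ^ (Nat.log 2 h + 1) := by positivity
    have h4 : (1 - 16 * r) ^ (Nat.log 2 h + 1) ≤ 1 := pow_le_one₀ (by linarith) (by linarith)
    have h5 : 0 ≤ (1 - 16 * r) ^ (Nat.log 2 h + 1) := pow_nonneg (by linarith) _
    have h6 := one_add_mul_le_pow (a := -(16 * r)) (by linarith) (Nat.log 2 h + 1)
    have h7 : 1 - (1 - 16 * r) ^ (Nat.log 2 h + 1) ≤ min 1 (2048 * Real.exp 50 * p * L) := by
      refine le_min (by linarith) ?_
      have h8 := mul_le_mul hc hk (by positivity) (by positivity)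
      rw [← sub_eq_add_neg] at h6
      linarith
    have h9 := Pr_bw_mono (ι := EdgeSlot n) (by linarith) h7 (min_le_left _ _)
      (E := fun ω => ∃ g : Equiv.Perm (Fin n), 1 / (Fintype.card (Equiv.Perm (Fin n)) : ℝ) ≠ 0 ∧
        ∀ i ∈ g⁻¹ • slots e H, ω i = true)
      (fun ω ω' hω ⟨g, h1, h2⟩ => ⟨g, h1, fun i hi => hω i (h2 i hi)⟩)
    have h10 := Pr_mono (ι := EdgeSlot n)
      (isProb_bw (p := min 1 (2048 * Real.exp 50 * p * L)) (by linarith) (min_le_left _ _)).nonneg
      (E := fun ω => ∃ g : Equiv.Perm (Fin n), 1 / (Fintype.card (Equiv.Perm (Fin n)) : ℝ) ≠ 0 ∧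
        ∀ i ∈ g⁻¹ • slots e H, ω i = true)
      (E' := fun ω => graphOf ω ∈ {G : SimpleGraph (Fin n) | H.IsContained G})
      (fun ω ⟨g, _, h2⟩ => isContained_of e H ω g⁻¹ h2)
    linarith
  · have h1 : 1 ≤ 2048 * Real.exp 50 * p * L := by
      have := mul_le_mul hc hL1 zero_le_one (by positivity)
      linarith
    rw [min_eq_left h1]
    have h2 := Ex_ind_subset' 1 (Finset.univ : Finset (EdgeSlot n)) (fun _ => 1)
    simp only [mul_one, one_pow, Ex_const (sum_bw 1)] at h2
    have h3 := Pr_mono (ι := EdgeSlot n) (isProb_bw zero_le_one le_rfl).nonneg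
      (E := fun ω => ∀ b ∈ (Finset.univ : Finset (EdgeSlot n)), ω b = true)
      (E' := fun ω => graphOf ω ∈ {G : SimpleGraph (Fin n) | H.IsContained G})
      (fun ω hω => isContained_of e H ω 1 fun z _ => hω z (Finset.mem_univ _))
    unfold Pr at h3 ⊢
    linarith

end Crest.Agent.R55
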