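import Crest.Agent.R55.Extremal

/-!
Two independent samples, their union and their intersection; regularity of an extremal law.
-/

set_option autoImplicit false
set_option linter.unusedSectionVars false

open Finset Pointwise

namespace Crest.Agent.R55

open Crest.Agent.R52 (ind ind_true ind_false ind_nonneg ind_le_one ind_mono ind_congr ind_and)

variable {V : Type} [Fintype V] [DecidableEq V]

/-- The law of two independent samples. -/
noncomputable def sq2 {α : Type} (μ : α → ℝ) (x : α × α) : ℝ := μ x.1 * μ x.2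

lemma sum_sq2_mul {α : Type} [Fintype α] (μ : α → ℝ) (f g : α → ℝ) :
    ∑ x : α × α, sq2 μ x * (f x.1 * g x.2) = (∑ a, μ a * f a) * ∑ a, μ a * g a := by
  rw [Fintype.sum_prod_type, Finset.sum_mul_sum]
  exact Finset.sum_congr rfl fun a _ => Finset.sum_congr rfl fun b _ => by unfold sq2; ring

lemma sq2_nonneg {α : Type} {μ : α → ℝ} (hμ : ∀ a, 0 ≤ μ a) (x : α × α) : 0 ≤ sq2 μ x :=
  mul_nonneg (hμ _) (hμ _)

lemma sum_sq2 {α : Type} [Fintype α] {μ : α → ℝ} (h1 : ∑ a, μ a = 1) : ∑ x, sq2 μ x = 1 := by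
  simpa [h1] using sum_sq2_mul μ (fun _ => 1) (fun _ => 1)

lemma ent_sq2 {α : Type} [Fintype α] {μ : α → ℝ} (h1 : ∑ a, μ a = 1) :
    ent (sq2 μ) = 2 * ent μ := by
  have e1 := sum_sq2_mul μ (fun a => -Real.log (μ a)) (fun _ => 1)
  have e2 := sum_sq2_mul μ (fun _ => 1) (fun a => -Real.log (μ a))
  simp only [mul_one, one_mul, h1] at e1 e2
  unfold ent
  rw [two_mul]
  nth_rewrite 1 [← e1]
  rw [← e2, ← Finset.sum_add_distrib]
  refine Finset.sum_congr rfl fun x _ => ?_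
  by_cases h : sq2 μ x = 0
  · simp [h]
  · rw [sq2] at h ⊢
    rw [Real.log_mul (left_ne_zero_of_mul h) (right_ne_zero_of_mul h)]
    ring

lemma pm_sq2_fst {α : Type} [Fintype α] {μ : α → ℝ} (h1 : ∑ a, μ a = 1) :
    pm (sq2 μ) Prod.fst = μ := by
  funext a
  rw [pm_fst]
  simp only [sq2]
  rw [← Finset.mul_sum, h1, mul_one]

lemma wt_inter (μ : Finset V → ℝ) (e : V) :
    wt (pm (sq2 μ) (fun x => x.1 ∩ x.2)) e = wt μ e ^ 2 := by
  rw [wt_pm, sq, wt, ← sum_sq2_mul]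
  refine Finset.sum_congr rfl fun x _ => ?_
  rw [← ind_and, ind_congr Finset.mem_inter]

lemma wt_union {μ : Finset V → ℝ} (h1 : ∑ a, μ a = 1) (e : V) :
    wt (pm (sq2 μ) (fun x => x.1 ∪ x.2)) e = 2 * wt μ e - wt μ e ^ 2 := by
  have e1 := sum_sq2_mul μ (fun a => ind (e ∈ a)) (fun _ => 1)
  have e2 := sum_sq2_mul μ (fun _ => 1) (fun a => ind (e ∈ a))
  have e3 := sum_sq2_mul μ (fun a => ind (e ∈ a)) (fun a => ind (e ∈ a))
  simp only [mul_one, one_mul, h1] at e1 e2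
  rw [wt_pm, sq, wt, two_mul, ← e3]
  nth_rewrite 1 [← e1]
  rw [← e2, ← Finset.sum_add_distrib, ← Finset.sum_sub_distrib]
  refine Finset.sum_congr rfl fun x _ => ?_
  by_cases h : e ∈ x.1 <;> by_cases h' : e ∈ x.2 <;> simp [h, h', ind_true, ind_false]

lemma phi_union {w : ℝ} (h0 : 0 ≤ w) (h1 : w ≤ 1) :
    14 / 5 * phi w 1 - 11 / 5 * w ^ 2 ≤ phi (2 * w - w ^ 2) 1 := by
  unfold phi
  rw [div_one, div_one]
  have hs0 := Real.sqrt_nonneg w
  have hs1 : Real.sqrt w ≤ 1 := Real.sqrt_le_one.2 h1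
  have hsq := Real.sq_sqrt h0
  generalize Real.sqrt w = s at hs0 hs1 hsq
  subst hsq
  have h2 : s * (7 / 5 - 2 / 5 * s) ≤ Real.sqrt (2 * s ^ 2 - (s ^ 2) ^ 2) := by
    refine Real.le_sqrt_of_sq_le ?_
    have : 0 ≤ s ^ 2 * (2 - s ^ 2 - (7 / 5 - 2 / 5 * s) ^ 2) :=
      mul_nonneg (sq_nonneg _) (by nlinarith)
    nlinarith
  have h3 : 0 ≤ 2 * s ^ 2 - (s ^ 2) ^ 2 := by nlinarith [sq_nonneg s]
  have h4 := mul_le_mul_of_nonneg_left h2 h3
  have h5 : 0 ≤ s ^ 4 * (1 - s) := mul_nonneg (by positivity) (by linarith)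
  have h6 : 0 ≤ s ^ 6 := by positivity
  nlinarith

variable {G : Type} [Group G] [Fintype G] [MulAction G V]

/-- Submodularity for two samples and their intersection. -/
lemma sent_sq2_le {μ : Finset V → ℝ} (hμ : ∀ B, 0 ≤ μ B) :
    sent G (sq2 μ) ≤ 2 * sent G (pm (sq2 μ) (fun x => (x.1, x.1 ∩ x.2))) -
      sent G (pm (sq2 μ) (fun x => x.1 ∩ x.2)) := by
  have hπ := sq2_nonneg hμ
  set lam := pm (sq2 μ) (fun x => (x.1, x.1 ∩ x.2)) with hlam
  set γ := pm (sq2 μ) (fun x => x.1 ∩ x.2) with hγ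
  have hlam0 : ∀ y, 0 ≤ lam y := pm_nonneg hπ _
  have hγ0 : ∀ y, 0 ≤ γ y := pm_nonneg hπ _
  have hmarg : ∀ D, ∑ B, sym G lam (B, D) = sym G γ D := fun D => by
    rw [← pm_snd, pm_sym lam (fun g a => Prod.smul_snd g a), hlam, pm_comp]
  have p1 : ∀ x, sq2 μ x ≠ 0 → 0 < sym G lam (x.1, x.1 ∩ x.2) := fun x hx =>
    sym_pos hlam0 (pm_pos hπ (fun x => (x.1, x.1 ∩ x.2)) hx).ne'
  have p2 : ∀ x, sq2 μ x ≠ 0 → 0 < sym G lam (x.2, x.1 ∩ x.2) := fun x hx => by
    rw [Finset.inter_comm]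
    exact p1 x.swap (by rwa [sq2, mul_comm])
  have p3 : ∀ x, sq2 μ x ≠ 0 → 0 < sym G γ (x.1 ∩ x.2) := fun x hx =>
    sym_pos hγ0 (pm_pos hπ (fun x => x.1 ∩ x.2) hx).ne'
  have h := gibbs_sym (G := G) (q := fun x : Finset V × Finset V =>
      sym G lam (x.1, x.1 ∩ x.2) * sym G lam (x.2, x.1 ∩ x.2) / sym G γ (x.1 ∩ x.2)) hπ
    (fun x => div_nonneg (mul_nonneg (sym_nonneg hlam0 _) (sym_nonneg hlam0 _)) (sym_nonneg hγ0 _))
    (fun g x => by
      simp only [Prod.smul_fst, Prod.smul_snd, ← Finset.smul_finset_inter, ← Prod.smul_mk,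
        sym_smul])
    (fun x hx => div_pos (mul_pos (p1 x hx) (p2 x hx)) (p3 x hx))
  have h2 : ∑ x : Finset V × Finset V,
      sym G lam (x.1, x.1 ∩ x.2) * sym G lam (x.2, x.1 ∩ x.2) / sym G γ (x.1 ∩ x.2) ≤
      ∑ x, sq2 μ x := by
    calc _ ≤ ∑ x : Finset V × Finset V, ∑ D, sym G lam (x.1, D) * sym G lam (x.2, D) / sym G γ D :=
          Finset.sum_le_sum fun x _ => Finset.single_le_sum
            (f := fun D => sym G lam (x.1, D) * sym G lam (x.2, D) / sym G γ D)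
            (fun D _ => div_nonneg (mul_nonneg (sym_nonneg hlam0 _) (sym_nonneg hlam0 _))
              (sym_nonneg hγ0 _)) (Finset.mem_univ _)
      _ = ∑ D, sym G γ D * sym G γ D / sym G γ D := by
          rw [Finset.sum_comm]
          refine Finset.sum_congr rfl fun D _ => ?_
          rw [← Finset.sum_div, Fintype.sum_prod_type]
          congr 1
          rw [← hmarg D, Finset.sum_mul_sum]
      _ ≤ ∑ D, sym G γ D := by
          refine Finset.sum_le_sum fun D _ => ?_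
          by_cases hD : sym G γ D = 0
          · simp [hD]
          · exact le_of_eq (by field_simp)
      _ = _ := by rw [sum_sym, hγ, sum_pm]
  have e1 : sent G lam = ∑ x, sq2 μ x * -Real.log (sym G lam (x.1, x.1 ∩ x.2)) :=
    sum_pm_mul (sq2 μ) (fun x => (x.1, x.1 ∩ x.2)) (fun y => -Real.log (sym G lam y))
  have e2 : sent G lam = ∑ x, sq2 μ x * -Real.log (sym G lam (x.2, x.1 ∩ x.2)) := by
    rw [e1, ← Equiv.sum_comp (Equiv.prodComm _ _)]
    refine Finset.sum_congr rfl fun x _ => ?_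
    simp only [Equiv.prodComm_apply, Prod.fst_swap, Prod.snd_swap, sq2]
    rw [Finset.inter_comm, mul_comm (μ x.2)]
  have e3 : sent G γ = ∑ x, sq2 μ x * -Real.log (sym G γ (x.1 ∩ x.2)) :=
    sum_pm_mul (sq2 μ) (fun x => x.1 ∩ x.2) (fun y => -Real.log (sym G γ y))
  have e4 : ∑ x, sq2 μ x * -Real.log (sym G lam (x.1, x.1 ∩ x.2) * sym G lam (x.2, x.1 ∩ x.2) /
      sym G γ (x.1 ∩ x.2)) = 2 * sent G lam - sent G γ := by
    rw [two_mul]
    nth_rewrite 1 [e1]
    rw [e2, e3, ← Finset.sum_add_distrib, ← Finset.sum_sub_distrib]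
    refine Finset.sum_congr rfl fun x _ => ?_
    by_cases hx : sq2 μ x = 0
    · simp [hx]
    · rw [Real.log_div (mul_pos (p1 x hx) (p2 x hx)).ne' (p3 x hx).ne',
        Real.log_mul (p1 x hx).ne' (p2 x hx).ne']
      ring
  linarith

/-- The union inequality. -/
lemma union_ineq {H : Finset V} {c : ℝ} (hc : Good G H c) {μ : Finset V → ℝ} (hμ : Adm H μ)
    (h1 : ∑ B, μ B = 1) (hext : psi μ = c * sz μ + (sent G μ - ent μ)) :
    2 * sent G μ - sent G (sq2 μ) ≤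
      -c * ∑ e, wt μ e ^ 2 + 11 / 5 * ∑ e, wt μ e ^ 2 - 4 / 5 * psi μ := by
  have hπ := sq2_nonneg hμ.nonneg
  have hU := hc (pm (sq2 μ) (fun x => x.1 ∪ x.2)) (adm_pm hπ fun x hx =>
    Finset.union_subset (hμ.sub _ (left_ne_zero_of_mul hx)) (hμ.sub _ (right_ne_zero_of_mul hx)))
  have hdp := data_proc (G := G) hπ (f := fun x : Finset V × Finset V => x.1 ∪ x.2)
    (fun g x => by simp only [Prod.smul_fst, Prod.smul_snd, Finset.smul_finset_union])
  rw [ent_sq2 h1] at hdp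
  have e1 : sz (pm (sq2 μ) (fun x => x.1 ∪ x.2)) = 2 * sz μ - ∑ e, wt μ e ^ 2 := by
    simp only [sz_eq, wt_union h1]
    rw [Finset.sum_sub_distrib, Finset.mul_sum]
  have e2 : 14 / 5 * psi μ - 11 / 5 * ∑ e, wt μ e ^ 2 ≤ psi (pm (sq2 μ) (fun x => x.1 ∪ x.2)) := by
    unfold psi
    rw [sum_pm, sum_sq2 h1, h1, Finset.mul_sum, Finset.mul_sum, ← Finset.sum_sub_distrib]
    refine Finset.sum_le_sum fun e _ => ?_
    rw [wt_union h1]
    exact phi_union (wt_nonneg hμ.nonneg e) (h1 ▸ wt_le hμ.nonneg e)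
  rw [e1] at hU
  linarith

/-- Lower bound on the symmetrised entropy from the orbit sizes. -/
lemma sent_ge {H : Finset V} {r : ℝ} (hr : 0 < r)
    (hyp : ∀ D ⊆ H, 1 ≤ ((Finset.univ.image (fun g : G => g • D)).card : ℝ) * r ^ D.card)
    {γ : Finset V → ℝ} (hγ : Adm H γ) (h1 : ∑ B, γ B = 1) :
    -Real.log r * sz γ ≤ sent G γ := by
  unfold sz sent
  rw [Finset.mul_sum]
  refine Finset.sum_le_sum fun D _ => ?_
  by_cases hD : γ D = 0
  · simp [hD]
  · have h2 := sym_mul_orbit_le (G := G) hγ.nonneg D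
    rw [h1] at h2
    have h3 := hyp D (hγ.sub D hD)
    have h4 := sym_pos (G := G) hγ.nonneg hD
    have h5 : sym G γ D ≤ r ^ D.card := by
      have := mul_le_mul_of_nonneg_left h3 h4.le
      have := mul_le_mul_of_nonneg_right h2 (pow_pos hr D.card).le
      nlinarith
    have h6 := Real.log_le_log h4 h5
    rw [Real.log_pow] at h6
    have := mul_le_mul_of_nonneg_left h6 (hγ.nonneg D)
    linarith

/-- Regularity: conditioning costs at most the mutual information. -/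
lemma regular {δ : Type} [Fintype δ] {H : Finset V} {c : ℝ} (hc : Good G H c)
    {ν : Finset V × δ → ℝ} (hν : ∀ y, 0 ≤ ν y) (hsub : ∀ y, ν y ≠ 0 → y.1 ⊆ H)
    (h1 : ∑ y, ν y = 1) :
    ∑ d, psi (fun B => ν (B, d)) ≤
      c * sz (pm ν Prod.fst) + sent G (pm ν Prod.fst) + ent (pm ν Prod.snd) - ent ν := by
  set μ := pm ν Prod.fst with hμ
  set η := pm ν Prod.snd with hη
  have hμ0 : ∀ B, 0 ≤ μ B := pm_nonneg hν _
  have hη0 : ∀ d, 0 ≤ η d := pm_nonneg hν _
  have p1 : ∀ y, ν y ≠ 0 → 0 < sym G μ y.1 := fun y hy =>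
    sym_pos hμ0 (pm_pos hν Prod.fst hy).ne'
  have p2 : ∀ y, ν y ≠ 0 → 0 < η y.2 := fun y hy => pm_pos hν Prod.snd hy
  have h2 : ∀ d, psi (fun B => ν (B, d)) ≤ c * sz (fun B => ν (B, d)) +
      (∑ B, ν (B, d) * -Real.log (sym G μ B * η d) - ent (fun B => ν (B, d))) := by
    intro d
    have h3 := hc (fun B => ν (B, d)) ⟨fun B => hν _, fun B hB => hsub (B, d) hB⟩
    have h4 := gibbs_sym (G := G) (μ := fun B => ν (B, d)) (q := fun B => sym G μ B * η d)
      (fun B => hν _) (fun B => mul_nonneg (sym_nonneg hμ0 _) (hη0 _))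
      (fun g B => by rw [sym_smul]) (fun B hB => mul_pos (p1 (B, d) hB) (p2 (B, d) hB))
    rw [← Finset.sum_mul, sum_sym, hμ, sum_pm, h1, one_mul, ← pm_snd, ← hη, ← hμ, sub_self] at h4
    linarith
  refine (Finset.sum_le_sum fun d _ => h2 d).trans (le_of_eq ?_)
  rw [Finset.sum_add_distrib, Finset.sum_sub_distrib, ← Finset.mul_sum]
  have e1 : ∑ d, sz (fun B => ν (B, d)) = sz μ := by
    rw [hμ, sz_pm, Fintype.sum_prod_type_right]
    simp only [sz]
  have e2 : ∑ d, ent (fun B => ν (B, d)) = ent ν := by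
    unfold ent
    rw [Fintype.sum_prod_type_right]
  have e3 : ∑ d, ∑ B, ν (B, d) * -Real.log (sym G μ B * η d) = sent G μ + ent η := by
    rw [sent, hμ, sum_pm_mul ν Prod.fst (fun B => -Real.log (sym G (pm ν Prod.fst) B)), hη, ent_pm,
      ← Finset.sum_add_distrib, Fintype.sum_prod_type_right, ← hμ, ← hη]
    refine Finset.sum_congr rfl fun d _ => Finset.sum_congr rfl fun B _ => ?_
    by_cases hy : ν (B, d) = 0
    · simp [hy]
    · rw [Real.log_mul (p1 (B, d) hy).ne' (p2 (B, d) hy).ne']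
      ring
  rw [e1, e2, e3]
  ring

end Crest.Agent.R55
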