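import Crest.Agent.R55.Pair

/-!
The entropy bound on the extremal constant and the spread estimate.
-/

set_option autoImplicit false
set_option linter.unusedSectionVars false

open Finset Pointwise

namespace Crest.Agent.R55

open Crest.Agent.R52 (ind ind_true ind_false ind_nonneg ind_le_one ind_mono ind_congr ind_and)

variable {V : Type} [Fintype V] [DecidableEq V]
variable {G : Type} [Group G] [Fintype G] [MulAction G V]

/-- Re-sampling the second coordinate from the symmetrised kernel. -/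
lemma exists_resample {α β : Type} [Fintype α] [Fintype β] [MulAction G α] [MulAction G β]
    {lam : α × β → ℝ} (hlam : ∀ y, 0 ≤ lam y) :
    ∃ ν : α × β → ℝ, (∀ y, 0 ≤ ν y) ∧ pm ν Prod.fst = pm lam Prod.fst ∧ sym G ν = sym G lam ∧
      ent ν - ent (pm lam Prod.fst) = sent G lam - sent G (pm lam Prod.fst) := by
  set μ := pm lam Prod.fst with hμ
  have hμ0 : ∀ B, 0 ≤ μ B := pm_nonneg hlam _
  have hmarg : ∀ B, ∑ D, sym G lam (B, D) = sym G μ B := fun B => by
    rw [← pm_fst, pm_sym lam (fun g a => Prod.smul_fst g a)]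
  have hle : ∀ y, sym G lam y ≤ sym G μ y.1 := fun y => by
    rw [← hmarg]
    exact Finset.single_le_sum (f := fun D => sym G lam (y.1, D))
      (fun D _ => sym_nonneg hlam _) (Finset.mem_univ y.2)
  let ν : α × β → ℝ := fun y => μ y.1 * (sym G lam y / sym G μ y.1)
  have hν0 : ∀ y, 0 ≤ ν y := fun y =>
    mul_nonneg (hμ0 _) (div_nonneg (sym_nonneg hlam _) (sym_nonneg hμ0 _))
  have h1 : pm ν Prod.fst = μ := by
    funext B
    rw [pm_fst]
    simp only [ν]
    rw [← Finset.mul_sum, ← Finset.sum_div, hmarg]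
    by_cases hB : μ B = 0
    · rw [hB, zero_mul]
    · rw [div_self (sym_pos hμ0 hB).ne', mul_one]
  have h2 : sym G ν = sym G lam := by
    funext y
    have e : sym G ν y = sym G μ y.1 * (sym G lam y / sym G μ y.1) := by
      conv_lhs => unfold sym
      conv_rhs => arg 1; unfold sym
      rw [div_mul_eq_mul_div, Finset.sum_mul]
      congr 1
      refine Finset.sum_congr rfl fun g _ => ?_
      simp only [ν, Prod.smul_fst, sym_smul]
    rw [e]
    by_cases hy : sym G μ y.1 = 0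
    · rw [hy, zero_mul]
      exact (le_antisymm (hy ▸ hle y) (sym_nonneg hlam y)).symm
    · field_simp
  refine ⟨ν, hν0, h1, h2, ?_⟩
  have e1 : ent μ = ∑ y, ν y * -Real.log (μ y.1) := by
    rw [← sum_pm_mul ν Prod.fst (fun B => -Real.log (μ B)), h1]; rfl
  have e2 : sent G μ = ∑ y, ν y * -Real.log (sym G μ y.1) := by
    rw [← sum_pm_mul ν Prod.fst (fun B => -Real.log (sym G μ B)), h1]; rfl
  have e3 : sent G lam = ∑ y, ν y * -Real.log (sym G lam y) := by
    rw [sent_eq, ← h2, ← sent_eq]; rfl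
  rw [e1, e2, e3, ent, ← Finset.sum_sub_distrib, ← Finset.sum_sub_distrib]
  refine Finset.sum_congr rfl fun y _ => ?_
  by_cases hy : ν y = 0
  · simp [hy]
  · have q1 : μ y.1 ≠ 0 := left_ne_zero_of_mul hy
    have q2 : sym G lam y / sym G μ y.1 ≠ 0 := right_ne_zero_of_mul hy
    have q3 : Real.log (ν y) = Real.log (μ y.1) + (Real.log (sym G lam y) - Real.log (sym G μ y.1)) := by
      simp only [ν]
      rw [Real.log_mul q1 q2, Real.log_div (div_ne_zero_iff.1 q2).1 (div_ne_zero_iff.1 q2).2]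
    rw [q3]
    ring

theorem extremal_le {H : Finset V} {r : ℝ} (hr : 0 < r)
    (hyp : ∀ D ⊆ H, 1 ≤ ((Finset.univ.image (fun g : G => g • D)).card : ℝ) * r ^ D.card)
    {c : ℝ} (hc : Good G H c) {μ : Finset V → ℝ} (hμ : Adm H μ)
    (h1 : ∑ B, μ B = 1) (h0 : μ ∅ = 0) (hext : psi μ = c * sz μ + (sent G μ - ent μ)) :
    c ≤ 32 + Real.log r := by
  have hπ := sq2_nonneg hμ.nonneg
  have hU := union_ineq hc hμ h1 hext
  have hS := sent_sq2_le (G := G) hμ.nonneg
  set lam := pm (sq2 μ) (fun x => (x.1, x.1 ∩ x.2)) with hlam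
  set γ := pm (sq2 μ) (fun x => x.1 ∩ x.2) with hγ
  set m := ∑ e, wt μ e ^ 2 with hm
  have hlam0 : ∀ y, 0 ≤ lam y := pm_nonneg hπ _
  have hγadm : Adm H γ := adm_pm hπ fun x hx =>
    Finset.inter_subset_left.trans (hμ.sub _ (left_ne_zero_of_mul hx))
  have hγ1 : ∑ B, γ B = 1 := by rw [hγ, sum_pm, sum_sq2 h1]
  have hγm : sz γ = m := by
    rw [sz_eq]
    exact Finset.sum_congr rfl fun e _ => wt_inter μ e
  have ha := sent_ge hr hyp hγadm hγ1
  rw [hγm] at ha
  have hfst : pm lam Prod.fst = μ := by rw [hlam, pm_comp, pm_sq2_fst h1]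
  have hsnd : pm lam Prod.snd = γ := by rw [hlam, pm_comp]
  obtain ⟨ν, hν0, hν1, hν2, hν3⟩ := exists_resample (G := G) hlam0
  rw [hfst] at hν1 hν3
  have hνs : ∑ y, ν y = 1 := by rw [← sum_pm ν Prod.fst, hν1, h1]
  have hνH : ∀ y, ν y ≠ 0 → y.1 ⊆ H := fun y hy =>
    hμ.sub _ (hν1 ▸ (pm_pos hν0 Prod.fst hy).ne')
  have hνsub : ∀ y, ν y ≠ 0 → y.2 ⊆ y.1 := fun y hy => by
    have h2 := (sym_pos (G := G) hν0 hy).ne'
    rw [hν2] at h2
    obtain ⟨g, hg⟩ := exists_of_sym_ne_zero h2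
    obtain ⟨x, _, hx⟩ := exists_of_pm_ne_zero hg
    have h3 : g • y.2 ⊆ g • y.1 := by
      rw [← Prod.smul_fst, ← Prod.smul_snd, ← hx]
      exact Finset.inter_subset_left
    exact Finset.smul_finset_subset_smul_finset_iff.1 h3
  set η := pm ν Prod.snd with hη
  have hηadm : Adm H η := adm_pm hν0 fun y hy => (hνsub y hy).trans (hνH y hy)
  have hηsym : sym G η = sym G γ := by
    rw [hη, ← pm_sym ν (fun g a => Prod.smul_snd g a), hν2,
      pm_sym lam (fun g a => Prod.smul_snd g a), hsnd]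
  have hηs : sent G η = sent G γ := by rw [sent_eq, sent_eq, hηsym]
  have hηm : sz η = m := by
    rw [← hγm, sz, sz, ← sum_sym_mul (G := G) η (f := fun B => (B.card : ℝ))
      (fun g B => by rw [Finset.card_smul_finset]), hηsym,
      sum_sym_mul (G := G) γ (f := fun B => (B.card : ℝ))
      (fun g B => by rw [Finset.card_smul_finset])]
  have hb := hc η hηadm
  have hb0 := psi_nonneg hηadm.nonneg
  rw [hηm, hηs] at hb
  have hreg := regular hc hν0 hνH hνs
  rw [hν1, ← hη] at hreg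
  have hch := chain hν0 hνs Prod.fst Prod.snd hνsub
  have e1 : pm ν (fun ω => (ω.1, ω.2)) = ν := pm_id ν
  have e2 : ∑ e, ∑ ω, ν ω * ind (e ∈ ω.2) = m := by
    rw [← hηm, sz_eq]
    exact Finset.sum_congr rfl fun e _ => (wt_pm ν Prod.snd e).symm
  have e3 : ∑ e, ∑ d, phi (pm (fun ω => ν ω * ind (e ∈ ω.1)) Prod.snd d) (pm ν Prod.snd d) =
      ∑ d, psi (fun B => ν (B, d)) := by
    rw [Finset.sum_comm]
    refine Finset.sum_congr rfl fun d _ => Finset.sum_congr rfl fun e _ => ?_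
    rw [pm_snd, pm_snd]
    rfl
  rw [e1, e2, e3, hν1, ← hη] at hch
  have hpsi := psi_nonneg hμ.nonneg
  have hm0 : 0 < m := by
    obtain ⟨B, _, hB⟩ := Finset.exists_ne_zero_of_sum_ne_zero (h1.trans_ne one_ne_zero)
    obtain ⟨e, he⟩ : B.Nonempty := Finset.nonempty_iff_ne_empty.2 fun h => hB (h ▸ h0)
    have h2 := Finset.single_le_sum (f := fun B => μ B * ind (e ∈ B))
      (fun B _ => mul_nonneg (hμ.nonneg B) (ind_nonneg _)) (Finset.mem_univ B)
    rw [ind_true he, mul_one] at h2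
    have h3 : 0 < wt μ e := lt_of_lt_of_le (lt_of_le_of_ne (hμ.nonneg B) (Ne.symm hB)) h2
    exact lt_of_lt_of_le (pow_pos h3 2) (Finset.single_le_sum (f := fun e => wt μ e ^ 2)
      (fun e _ => sq_nonneg _) (Finset.mem_univ e))
  have key : c * m ≤ (32 + Real.log r) * m := by linarith
  exact le_of_mul_le_mul_right key hm0

/-- The spread estimate. -/
theorem spread_bound {H : Finset V} (hH : H.Nonempty) {r : ℝ} (hr : 0 < r)
    (hyp : ∀ D ⊆ H, 1 ≤ ((Finset.univ.image (fun g : G => g • D)).card : ℝ) * r ^ D.card)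
    (A : Finset V) :
    ∑ g : G, (1 / (Fintype.card G : ℝ)) * ind (g • A ⊆ H) ≤ (Real.exp 32 * r) ^ A.card := by
  obtain ⟨c, hc, μ, hμ, h1, h0, hext⟩ := exists_extremal (G := G) hH
  have hle := extremal_le hr hyp hc hμ h1 h0 hext
  let θ : Finset V → ℝ := fun B => ind (B ⊆ H ∧ ∃ g : G, g • A = B)
  have hθ : Adm H θ := ⟨fun B => ind_nonneg _, fun B hB => by
    by_contra h
    exact hB (ind_false fun h' => h h'.1)⟩
  have hx : ∑ g : G, (1 / (Fintype.card G : ℝ)) * ind (g • A ⊆ H) = sym G θ A := by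
    unfold sym
    rw [Finset.sum_div]
    refine Finset.sum_congr rfl fun g _ => ?_
    simp only [θ]
    rw [ind_congr (show (g • A ⊆ H ∧ ∃ g' : G, g' • A = g • A) ↔ g • A ⊆ H from
      ⟨fun h => h.1, fun h => ⟨h, g, rfl⟩⟩)]
    ring
  rw [hx]
  rcases eq_or_lt_of_le (sym_nonneg (G := G) hθ.nonneg A) with hz | hz
  · rw [← hz]; positivity
  have hg := hc θ hθ
  have hp := psi_nonneg hθ.nonneg
  have e1 : sz θ = (∑ B, θ B) * A.card := by
    rw [sz, Finset.sum_mul]
    refine Finset.sum_congr rfl fun B _ => ?_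
    by_cases hB : B ⊆ H ∧ ∃ g : G, g • A = B
    · obtain ⟨_, g, rfl⟩ := hB
      rw [Finset.card_smul_finset]
    · simp only [θ, ind_false hB, zero_mul]
  have e2 : sent G θ = (∑ B, θ B) * -Real.log (sym G θ A) := by
    rw [sent, Finset.sum_mul]
    refine Finset.sum_congr rfl fun B _ => ?_
    by_cases hB : B ⊆ H ∧ ∃ g : G, g • A = B
    · obtain ⟨_, g, rfl⟩ := hB
      rw [sym_smul]
    · simp only [θ, ind_false hB, zero_mul]
  have e3 : ent θ = 0 := Finset.sum_eq_zero fun B _ => by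
    by_cases hB : B ⊆ H ∧ ∃ g : G, g • A = B
    · simp only [θ, ind_true hB, Real.log_one, neg_zero, mul_zero]
    · simp only [θ, ind_false hB, zero_mul]
  have hN : 0 < ∑ B, θ B := by
    obtain ⟨g, hg⟩ := exists_of_sym_ne_zero hz.ne'
    exact lt_of_lt_of_le (lt_of_le_of_ne (hθ.nonneg _) (Ne.symm hg))
      (Finset.single_le_sum (fun B _ => hθ.nonneg B) (Finset.mem_univ _))
  rw [e1, e2, e3] at hg
  have h2 : (∑ B, θ B) * Real.log (sym G θ A) ≤ (∑ B, θ B) * (c * A.card) := by linarith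
  have h3 := le_of_mul_le_mul_left h2 hN
  have h4 : c * A.card ≤ (32 + Real.log r) * A.card :=
    mul_le_mul_of_nonneg_right hle (Nat.cast_nonneg _)
  rw [← Real.log_le_log_iff hz (by positivity), Real.log_pow,
    Real.log_mul (Real.exp_pos _).ne' hr.ne', Real.log_exp]
  linarith

end Crest.Agent.R55
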